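import Vale.Agent.P088.R2.H551.V.Defs
import Mathlib.Analysis.Matrix.Normed

/-!
# P088, pairs: the Hilbert-Schmidt norm
-/

open MeasureTheory Set
open scoped ContDiff Matrix

noncomputable section

namespace Vale.Agent.P088.PJ.H561

open Vale.Agent.P088.PJ

variable {N : ℕ}

/-- The Hilbert-Schmidt norm. -/
def fn (A : Matrix (Fin N) (Fin N) ℂ) : ℝ := √(nq A)

theorem nq_nonneg (A : Matrix (Fin N) (Fin N) ℂ) : 0 ≤ nq A :=
  Finset.sum_nonneg fun _ _ => Finset.sum_nonneg fun _ _ => sq_nonneg _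

theorem fn_nonneg (A : Matrix (Fin N) (Fin N) ℂ) : 0 ≤ fn A := Real.sqrt_nonneg _

theorem fn_sq (A : Matrix (Fin N) (Fin N) ℂ) : fn A ^ 2 = nq A := Real.sq_sqrt (nq_nonneg A)

section

open scoped Matrix.Norms.Frobenius

theorem fn_eq (A : Matrix (Fin N) (Fin N) ℂ) : fn A = ‖A‖ := by
  rw [Matrix.frobenius_norm_def, fn, nq, Real.sqrt_eq_rpow]
  norm_num

theorem fn_mul (A B : Matrix (Fin N) (Fin N) ℂ) : fn (A * B) ≤ fn A * fn B := by
  rw [fn_eq, fn_eq, fn_eq]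
  exact Matrix.frobenius_norm_mul A B

theorem fn_add (A B : Matrix (Fin N) (Fin N) ℂ) : fn (A + B) ≤ fn A + fn B := by
  rw [fn_eq, fn_eq, fn_eq]
  exact norm_add_le A B

theorem fn_sub (A B : Matrix (Fin N) (Fin N) ℂ) : fn (A - B) ≤ fn A + fn B := by
  rw [fn_eq, fn_eq, fn_eq]
  exact norm_sub_le A B

theorem fn_neg (A : Matrix (Fin N) (Fin N) ℂ) : fn (-A) = fn A := by
  rw [fn_eq, fn_eq]
  exact norm_neg A

theorem fn_smul (c : ℂ) (A : Matrix (Fin N) (Fin N) ℂ) : fn (c • A) = ‖c‖ * fn A := by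
  rw [fn_eq, fn_eq]
  exact norm_smul c A

theorem fn_zero : fn (0 : Matrix (Fin N) (Fin N) ℂ) = 0 := by
  rw [fn_eq]
  exact norm_zero

theorem fn_sum {ι : Type*} (s : Finset ι) (A : ι → Matrix (Fin N) (Fin N) ℂ) :
    fn (∑ i ∈ s, A i) ≤ ∑ i ∈ s, fn (A i) := by
  simp only [fn_eq]
  exact norm_sum_le s A

end

theorem fn_star (A : Matrix (Fin N) (Fin N) ℂ) : fn Aᴴ = fn A := by
  unfold fn nq
  rw [Finset.sum_comm]
  simp only [Matrix.conjTranspose_apply, norm_star]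

theorem nq_mono {A B : Matrix (Fin N) (Fin N) ℂ} (h : fn A ≤ fn B) : nq A ≤ nq B := by
  rw [← fn_sq, ← fn_sq]
  exact pow_le_pow_left₀ (fn_nonneg _) h 2

theorem fn_le {A : Matrix (Fin N) (Fin N) ℂ} {e : ℝ} (he : 0 ≤ e) (h : ∀ a b, ‖A a b‖ ≤ e) :
    fn A ≤ N * e := by
  unfold fn
  rw [Real.sqrt_le_left (by positivity)]
  calc nq A ≤ ∑ _a : Fin N, ∑ _b : Fin N, e ^ 2 :=
        Finset.sum_le_sum fun a _ => Finset.sum_le_sum fun b _ =>
          pow_le_pow_left₀ (norm_nonneg _) (h a b) 2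
    _ = (N * e) ^ 2 := by
        simp only [Finset.sum_const, Finset.card_univ, Fintype.card_fin, nsmul_eq_mul]
        ring

theorem entry_le (A : Matrix (Fin N) (Fin N) ℂ) (a b : Fin N) : ‖A a b‖ ≤ fn A := by
  unfold fn
  refine Real.le_sqrt_of_sq_le ?_
  refine le_trans ?_ (Finset.single_le_sum (f := fun a => ∑ b, ‖A a b‖ ^ 2)
    (fun _ _ => Finset.sum_nonneg fun _ _ => sq_nonneg _) (Finset.mem_univ a))
  exact Finset.single_le_sum (f := fun b => ‖A a b‖ ^ 2) (fun _ _ => sq_nonneg _)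
    (Finset.mem_univ b)

theorem tr_le (A B : Matrix (Fin N) (Fin N) ℂ) : ‖(A * B).trace‖ ≤ fn A * fn B := by
  have h1 : ‖(A * B).trace‖ ≤ ∑ p : Fin N × Fin N, ‖A p.1 p.2‖ * ‖B p.2 p.1‖ := by
    rw [Matrix.trace, Fintype.sum_prod_type]
    refine (norm_sum_le _ _).trans (Finset.sum_le_sum fun a _ => ?_)
    rw [Matrix.diag_apply, Matrix.mul_apply]
    refine (norm_sum_le _ _).trans (Finset.sum_le_sum fun b _ => ?_)
    exact (norm_mul _ _).le
  have h2 := Finset.sum_mul_sq_le_sq_mul_sq (Finset.univ : Finset (Fin N × Fin N))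
    (fun p => ‖A p.1 p.2‖) (fun p => ‖B p.2 p.1‖)
  have e1 : ∑ p : Fin N × Fin N, ‖A p.1 p.2‖ ^ 2 = nq A := by
    rw [Fintype.sum_prod_type]; rfl
  have e2 : ∑ p : Fin N × Fin N, ‖B p.2 p.1‖ ^ 2 = nq B := by
    rw [Fintype.sum_prod_type, Finset.sum_comm]; rfl
  rw [e1, e2] at h2
  have h3 : ∑ p : Fin N × Fin N, ‖A p.1 p.2‖ * ‖B p.2 p.1‖ ≤ fn A * fn B := by
    refine abs_le_of_sq_le_sq' ?_ (mul_nonneg (fn_nonneg _) (fn_nonneg _)) |>.2
    rw [mul_pow, fn_sq, fn_sq]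
    exact h2
  exact h1.trans h3

/-- Trace of `A` times the Hermitian form. -/
theorem tr_star_self (A : Matrix (Fin N) (Fin N) ℂ) : (A * Aᴴ).trace = (nq A : ℂ) := by
  unfold nq
  rw [Matrix.trace]
  push_cast
  refine Finset.sum_congr rfl fun a _ => ?_
  rw [Matrix.diag_apply, Matrix.mul_apply]
  refine Finset.sum_congr rfl fun b _ => ?_
  rw [Matrix.conjTranspose_apply]
  exact Complex.mul_conj' _

end Vale.Agent.P088.PJ.H561
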