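import Vale.Agent.P088.R2.H561.V.MeB

/-!
# P088, pairs, row V-ME: the energy estimate of `P₂ - P₁`
-/

open MeasureTheory Set
open scoped ContDiff Matrix

noncomputable section

namespace Vale.Agent.P088.PJ.H561

open Vale.Agent.P088.LR Vale.Agent.P088.LR.U Vale.Agent.P088.LR.H158
open Vale.Agent.P088.LR.U.H129 (smC_pdm smC_add smC_sub smC_sum smC_smul pdm_add pdm_sub pdm_off)
open Vale.Agent.P088.PJ

variable {n N : ℕ}

/-- Smoothness and smallness of the coefficients of the quadratic term. -/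
theorem facts (n N : ℕ) : ∃ c δ₀ : ℝ, 1 ≤ c ∧ 0 < δ₀ ∧ δ₀ ≤ 1 ∧ ∀ δ : ℝ, 0 ≤ δ → δ ≤ δ₀ →
    ∀ (Ω : Set (V n)) (s : MF n) (P : MC n N) (G : Fin n → MC n N), Dt 2 δ Ω s P G →
    (∀ x, IsUnit (P x).det) ∧ SmC (fun x => (P x)⁻¹) ∧ ClC 1 c (fun x => (P x)⁻¹) ∧
    (∀ i, ClC 1 δ (pdm i P)) ∧
    (∀ i, SmC (fun x => pdm i P x - G i x)) ∧ (∀ i, SmC (fun x => pdm i P x + G i x)) ∧
    (∀ i, ClC 1 (2 * δ) (fun x => pdm i P x - G i x)) ∧
    ∀ i, ClC 1 (2 * δ) (fun x => pdm i P x + G i x) := by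
  obtain ⟨C, ε₀, hC, hε, H⟩ := H91.inv n N 1
  refine ⟨C + 1, min ε₀ 1, by linarith, lt_min hε one_pos, min_le_right _ _, ?_⟩
  intro δ hδ0 hδ Ω s P G h
  have hδ1 : δ ≤ 1 := hδ.trans (min_le_right _ _)
  have sm1 : SmC fun _ : V n => (1 : Matrix (Fin N) (Fin N) ℂ) := fun _ _ => contDiff_const
  obtain ⟨hu, hsm, hcl⟩ := H P h.sP δ hδ0 (hδ.trans (min_le_left _ _))
    (clC_mono h.cP (by norm_num) le_rfl)
  have h1 : ClC 1 (C * δ + 1) (fun x => (P x)⁻¹) := by
    have h2 := clC_add (smC_sub hsm sm1) sm1 hcl clC_one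
    simpa only [sub_add_cancel] using h2
  have hp : ∀ i, ClC 1 δ (pdm i P) := by
    intro i
    have h2 := clC_pdm (smC_sub h.sP sm1) h.cP i
    have e : pdm i (fun x => P x - 1) = pdm i P := by
      funext x
      rw [pdm_sub h.sP sm1, pdm_const, sub_zero]
    rwa [e] at h2
  have hg : ∀ i, ClC 1 δ (G i) := fun i => clC_mono (h.cG i) (by norm_num) le_rfl
  refine ⟨hu, hsm, clC_mono h1 le_rfl ?_, hp, fun i => smC_sub (smC_pdm h.sP i) (h.sG i),
    fun i => smC_add (smC_pdm h.sP i) (h.sG i), fun i => ?_, fun i => ?_⟩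
  · have : C * δ ≤ C * 1 := mul_le_mul_of_nonneg_left hδ1 hC.le
    linarith
  · rw [two_mul]
    exact clC_sub (smC_pdm h.sP i) (h.sG i) (hp i) (hg i)
  · rw [two_mul]
    exact clC_add (smC_pdm h.sP i) (h.sG i) (hp i) (hg i)

/-- The test functions for (QW). -/
theorem f_bound {δ u : ℝ} (hδ : 0 ≤ δ) (hu : 0 ≤ u) {m : MC n N} (hm : SmC m)
    (h0 : ∀ x ∉ bl0 n, m x = 0) {U W : Fin n → MC n N} (hU : ∀ i, SmC (U i))
    (hW : ∀ i, SmC (W i)) (cU : ∀ i, ClC 1 (u * δ) (U i)) (cW : ∀ i, ClC 1 (u * δ) (W i)) :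
    (∀ i, SmC (fun x => m x * U i x - W i x * m x)) ∧
    ∫ x in bl0 n, ∑ i, (nq ((fun x => m x * U i x - W i x * m x) x) +
      ∑ j, nq (pdm j (fun x => m x * U i x - W i x * m x) x)) ≤
    (2 * N * u) ^ 2 * (2 * n ^ 2 + 2 * n) * δ ^ 2 * (n2 m + ∑ j, n2 (pdm j m)) := by
  have hf : ∀ i, SmC (fun x => m x * U i x - W i x * m x) := fun i =>
    smC_sub (SmC_mul hm (hU i)) (SmC_mul (hW i) hm)
  refine ⟨hf, ?_⟩
  have hκ : 0 ≤ N * (u * δ) := by positivity
  have bU : ∀ i x, fn (U i x) ≤ N * (u * δ) := fun i x => fn_of_clC (by positivity) (cU i) x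
  have bW : ∀ i x, fn (W i x) ≤ N * (u * δ) := fun i x => fn_of_clC (by positivity) (cW i) x
  have dU : ∀ i j x, fn (pdm j (U i) x) ≤ N * (u * δ) := fun i j x =>
    fn_of_clC (by positivity) (clC_pdm (hU i) (cU i) j) x
  have dW : ∀ i j x, fn (pdm j (W i) x) ≤ N * (u * δ) := fun i j x =>
    fn_of_clC (by positivity) (clC_pdm (hW i) (cW i) j) x
  have p0 : ∀ i x, nq (m x * U i x - W i x * m x) ≤ (2 * (N * (u * δ))) ^ 2 * nq (m x) := by
    intro i x
    rw [← fn_sq, ← fn_sq, ← mul_pow]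
    refine pow_le_pow_left₀ (fn_nonneg _) ?_ 2
    refine (fn_sub _ _).trans ?_
    have g1 := (fn_mul (m x) (U i x)).trans (mul_le_mul_of_nonneg_left (bU i x) (fn_nonneg _))
    have g2 := (fn_mul (W i x) (m x)).trans (mul_le_mul_of_nonneg_right (bW i x) (fn_nonneg _))
    linarith
  have p1 : ∀ i j x, nq (pdm j (fun x => m x * U i x - W i x * m x) x) ≤
      (2 * (N * (u * δ))) ^ 2 * (2 * (nq (pdm j m x) + nq (m x))) := by
    intro i j x
    have e : pdm j (fun x => m x * U i x - W i x * m x) x =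
        (pdm j m x * U i x + m x * pdm j (U i) x) - (pdm j (W i) x * m x + W i x * pdm j m x) := by
      rw [pdm_sub (SmC_mul hm (hU i)) (SmC_mul (hW i) hm), pdm_mul hm (hU i), pdm_mul (hW i) hm]
    have g0 : fn (pdm j (fun x => m x * U i x - W i x * m x) x) ≤
        2 * (N * (u * δ)) * (fn (pdm j m x) + fn (m x)) := by
      rw [e]
      refine (fn_sub _ _).trans ((add_le_add (fn_add _ _) (fn_add _ _)).trans ?_)
      have g1 := (fn_mul (pdm j m x) (U i x)).trans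
        (mul_le_mul_of_nonneg_left (bU i x) (fn_nonneg _))
      have g2 := (fn_mul (m x) (pdm j (U i) x)).trans
        (mul_le_mul_of_nonneg_left (dU i j x) (fn_nonneg _))
      have g3 := (fn_mul (pdm j (W i) x) (m x)).trans
        (mul_le_mul_of_nonneg_right (dW i j x) (fn_nonneg _))
      have g4 := (fn_mul (W i x) (pdm j m x)).trans
        (mul_le_mul_of_nonneg_right (bW i x) (fn_nonneg _))
      linarith
    rw [← fn_sq, ← fn_sq, ← fn_sq]
    refine (pow_le_pow_left₀ (fn_nonneg _) g0 2).trans ?_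
    rw [mul_pow]
    refine mul_le_mul_of_nonneg_left ?_ (sq_nonneg _)
    nlinarith [sq_nonneg (fn (pdm j m x) - fn (m x))]
  have cm := continuous_nq hm
  have cd : ∀ j, Continuous fun x => nq (pdm j m x) := fun j => continuous_nq (smC_pdm hm j)
  have zm : ∀ x ∉ bl0 n, nq (m x) = 0 := fun x hx => by rw [h0 x hx, nq_zero]
  have zd : ∀ j, ∀ x ∉ bl0 n, nq (pdm j m x) = 0 := fun j x hx => by
    rw [pdm_zero_off bl0_closed h0 j x hx, nq_zero]
  have cL : Continuous fun x => ∑ i, (nq (m x * U i x - W i x * m x) +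
      ∑ j, nq (pdm j (fun x => m x * U i x - W i x * m x) x)) :=
    continuous_finsetSum _ fun i _ => (continuous_nq (hf i)).add
      (continuous_finsetSum _ fun j _ => continuous_nq (smC_pdm (hf i) j))
  have cR : Continuous fun x => (2 * (N * (u * δ))) ^ 2 * ((2 * n ^ 2 + n) * nq (m x) +
      2 * n * ∑ j, nq (pdm j m x)) :=
    continuous_const.mul ((continuous_const.mul cm).add
      (continuous_const.mul (continuous_finsetSum _ fun j _ => cd j)))
  have zR : ∀ x ∉ bl0 n, (2 * (N * (u * δ))) ^ 2 * ((2 * n ^ 2 + n) * nq (m x) +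
      2 * n * ∑ j, nq (pdm j m x)) = 0 := fun x hx => by
    simp only [zm x hx, zd _ x hx, Finset.sum_const_zero, mul_zero, add_zero]
  have h1 : ∫ x in bl0 n, ∑ i, (nq (m x * U i x - W i x * m x) +
      ∑ j, nq (pdm j (fun x => m x * U i x - W i x * m x) x)) ≤
      ∫ x in bl0 n, (2 * (N * (u * δ))) ^ 2 * ((2 * n ^ 2 + n) * nq (m x) +
        2 * n * ∑ j, nq (pdm j m x)) := by
    refine setIntegral_mono_on (cL.continuousOn.integrableOn_compact bl0_compact)
      (cR.continuousOn.integrableOn_compact bl0_compact) bl0_closed.measurableSet ?_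
    intro x _
    have g1 : ∑ i, (nq (m x * U i x - W i x * m x) +
        ∑ j, nq (pdm j (fun x => m x * U i x - W i x * m x) x)) ≤
        ∑ _i : Fin n, ((2 * (N * (u * δ))) ^ 2 * nq (m x) + ∑ j, (2 * (N * (u * δ))) ^ 2 *
          (2 * (nq (pdm j m x) + nq (m x)))) :=
      Finset.sum_le_sum fun i _ => add_le_add (p0 i x) (Finset.sum_le_sum fun j _ => p1 i j x)
    refine g1.trans (le_of_eq ?_)
    simp only [Finset.sum_add_distrib, Finset.sum_const, Finset.card_univ, Fintype.card_fin,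
      nsmul_eq_mul, ← Finset.mul_sum]
    ring
  refine h1.trans ?_
  have i1 : Integrable fun x => (2 * (n : ℝ) ^ 2 + n) * nq (m x) :=
    intg (continuous_const.mul cm) fun x hx => by rw [zm x hx, mul_zero]
  have i2 : Integrable fun x => 2 * (n : ℝ) * ∑ j, nq (pdm j m x) :=
    intg (continuous_const.mul (continuous_finsetSum _ fun j _ => cd j)) fun x hx => by
      simp only [zd _ x hx, Finset.sum_const_zero, mul_zero]
  rw [setIntegral_eq_integral_of_forall_compl_eq_zero fun x hx => zR x hx, integral_const_mul,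
    integral_add i1 i2, integral_const_mul, integral_const_mul,
    integral_finset_sum _ fun j _ => intg (cd j) (zd j)]
  have e1 : ∫ x, nq (m x) = n2 m := rfl
  have e2 : ∑ j, ∫ x, nq (pdm j m x) = ∑ j, n2 (pdm j m) := rfl
  rw [e1, e2]
  have q1 : 0 ≤ n2 m := integral_nonneg fun x => nq_nonneg _
  have q2 : 0 ≤ ∑ j, n2 (pdm j m) := Finset.sum_nonneg fun j _ =>
    integral_nonneg fun x => nq_nonneg _
  have e3 : (2 * N * u) ^ 2 * (2 * (n : ℝ) ^ 2 + 2 * n) * δ ^ 2 * (n2 m + ∑ j, n2 (pdm j m)) =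
      (2 * (N * (u * δ))) ^ 2 * ((2 * (n : ℝ) ^ 2 + 2 * n) * (n2 m + ∑ j, n2 (pdm j m))) := by ring
  rw [e3]
  refine mul_le_mul_of_nonneg_left ?_ (sq_nonneg _)
  have hn : (0 : ℝ) ≤ n := Nat.cast_nonneg n
  nlinarith [mul_nonneg hn q1, mul_nonneg (sq_nonneg (n : ℝ)) q2]

end Vale.Agent.P088.PJ.H561
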