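import Vale.Agent.P088.R2.H561.V.Tools

/-!
# P088, pairs, row V-ME: algebra of the difference of the equations of `P₁`, `P₂`
-/

open MeasureTheory Set
open scoped ContDiff Matrix

noncomputable section

namespace Vale.Agent.P088.PJ.H561

open Vale.Agent.P088.LR Vale.Agent.P088.LR.U Vale.Agent.P088.LR.H158
open Vale.Agent.P088.LR.U.H129 (smC_pdm smC_add smC_sub smC_sum smC_smul pdm_add pdm_sub pdm_off)
open Vale.Agent.P088.PJ

variable {n N : ℕ}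

/-- The quadratic term `∑ s_ij (∂_i P - G_i) P⁻¹ (∂_j P + G_j)`. -/
def Qd (s : MF n) (P : MC n N) (G : Fin n → MC n N) : MC n N := fun x =>
  ∑ i, ∑ j, (s x i j : ℂ) • ((pdm i P x - G i x) * (P x)⁻¹ * (pdm j P x + G j x))

/-- The flux `∑_j s_ij ∂_j P`. -/
def Fl (s : MF n) (P : MC n N) (i : Fin n) : MC n N := fun y => ∑ j, (s y i j : ℂ) • pdm j P y

/-- The remainder. -/
def rst (S S' : Fin n → Fin n → ℂ) (A1 B1 B2 g1 d : Fin n → Matrix (Fin N) (Fin N) ℂ)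
    (I1 I2 : Matrix (Fin N) (Fin N) ℂ) (i j : Fin n) : Matrix (Fin N) (Fin N) ℂ :=
  S i j • (d i * I2 * B2 j) + S i j • (A1 i * I1 * d j) + (S i j - S' i j) • (g1 i * I2 * B2 j)
    - (S i j - S' i j) • (A1 i * I1 * g1 j) + S i j • (A1 i * (I2 - I1) * B2 j)
    + (S i j - S' i j) • (A1 i * I1 * B1 j)

theorem alg (S S' : Fin n → Fin n → ℂ) (hS : ∀ i j, S i j = S j i) (hS' : ∀ i j, S' i j = S' j i)
    (A1 A2 B1 B2 g1 g2 d : Fin n → Matrix (Fin N) (Fin N) ℂ) (I1 I2 : Matrix (Fin N) (Fin N) ℂ)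
    (hA : ∀ i, A2 i = A1 i + d i - (g2 i - g1 i)) (hB : ∀ i, B2 i = B1 i + d i + (g2 i - g1 i)) :
    (∑ i, ∑ j, S i j • (A2 i * I2 * B2 j)) - ∑ i, ∑ j, S' i j • (A1 i * I1 * B1 j) =
      (∑ i, A1 i * I1 * ∑ j, (S i j • g2 j - S' i j • g1 j))
        - (∑ j, (∑ i, (S j i • g2 i - S' j i • g1 i)) * (I2 * B2 j))
        + ∑ i, ∑ j, rst S S' A1 B1 B2 g1 d I1 I2 i j := by
  have e1 : (∑ j, (∑ i, (S j i • g2 i - S' j i • g1 i)) * (I2 * B2 j)) =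
      ∑ i, ∑ j, (S i j • g2 i - S' i j • g1 i) * (I2 * B2 j) := by
    rw [Finset.sum_comm]
    refine Finset.sum_congr rfl fun j _ => ?_
    rw [Finset.sum_mul]
    refine Finset.sum_congr rfl fun i _ => ?_
    rw [hS j i, hS' j i]
  have e2 : (∑ i, A1 i * I1 * ∑ j, (S i j • g2 j - S' i j • g1 j)) =
      ∑ i, ∑ j, A1 i * I1 * (S i j • g2 j - S' i j • g1 j) := by
    refine Finset.sum_congr rfl fun i _ => ?_
    rw [Finset.mul_sum]
  rw [e1, e2]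
  simp only [← Finset.sum_sub_distrib, ← Finset.sum_add_distrib]
  refine Finset.sum_congr rfl fun i _ => Finset.sum_congr rfl fun j _ => ?_
  unfold rst
  rw [hA i]
  have hB' : B1 j = B2 j - d j - (g2 j - g1 j) := by rw [hB j]; abel
  rw [hB']
  simp only [add_mul, mul_add, sub_mul, mul_sub, Matrix.mul_smul, Matrix.smul_mul, smul_add,
    smul_sub, sub_smul, Matrix.mul_assoc]
  abel

theorem tr_cyc (A B C D : Matrix (Fin N) (Fin N) ℂ) :
    (A * B * C * D).trace = (C * (D * A * B)).trace := by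
  rw [Matrix.mul_assoc (A * B) C D, Matrix.trace_mul_comm, Matrix.mul_assoc, Matrix.mul_assoc]

/-- The trace of the difference of the quadratic terms times `m`. -/
theorem tr_alg (S S' : Fin n → Fin n → ℂ) (hS : ∀ i j, S i j = S j i)
    (hS' : ∀ i j, S' i j = S' j i)
    (A1 A2 B1 B2 g1 g2 d : Fin n → Matrix (Fin N) (Fin N) ℂ) (I1 I2 : Matrix (Fin N) (Fin N) ℂ)
    (hA : ∀ i, A2 i = A1 i + d i - (g2 i - g1 i)) (hB : ∀ i, B2 i = B1 i + d i + (g2 i - g1 i))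
    (m : Matrix (Fin N) (Fin N) ℂ) :
    (((∑ i, ∑ j, S i j • (A2 i * I2 * B2 j)) - ∑ i, ∑ j, S' i j • (A1 i * I1 * B1 j)) * m).trace =
      (∑ i, (∑ j, (S i j • g2 j - S' i j • g1 j)) * (m * (A1 i * I1) - (I2 * B2 i) * m)).trace
        + ((∑ i, ∑ j, rst S S' A1 B1 B2 g1 d I1 I2 i j) * m).trace := by
  rw [alg S S' hS hS' A1 A2 B1 B2 g1 g2 d I1 I2 hA hB, add_mul, Matrix.trace_add]
  congr 1
  rw [sub_mul, Matrix.trace_sub, Finset.sum_mul, Finset.sum_mul, Matrix.trace_sum,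
    Matrix.trace_sum, Matrix.trace_sum, ← Finset.sum_sub_distrib]
  refine Finset.sum_congr rfl fun i _ => ?_
  rw [mul_sub, Matrix.trace_sub, tr_cyc]
  simp only [Matrix.mul_assoc]

theorem fn_rst {S S' : Fin n → Fin n → ℂ} {A1 B1 B2 g1 d : Fin n → Matrix (Fin N) (Fin N) ℂ}
    {I1 I2 : Matrix (Fin N) (Fin N) ℂ} {a c μ : ℝ} (ha : 0 ≤ a) (hc : 0 ≤ c)
    (hS : ∀ i j, ‖S i j‖ ≤ 2) (hA : ∀ i, fn (A1 i) ≤ a) (hB1 : ∀ i, fn (B1 i) ≤ a)
    (hB2 : ∀ i, fn (B2 i) ≤ a) (hg : ∀ i, fn (g1 i) ≤ a) (h1 : fn I1 ≤ c) (h2 : fn I2 ≤ c)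
    (h3 : fn (I2 - I1) ≤ c ^ 2 * μ) (i j : Fin n) :
    fn (rst S S' A1 B1 B2 g1 d I1 I2 i j) ≤ 2 * a * c * (fn (d i) + fn (d j))
      + 3 * a ^ 2 * c * ‖S i j - S' i j‖ + 2 * a ^ 2 * c ^ 2 * μ := by
  have t3 : ∀ X Y Z : Matrix (Fin N) (Fin N) ℂ, fn (X * Y * Z) ≤ fn X * fn Y * fn Z := fun X Y Z =>
    (fn_mul _ _).trans (mul_le_mul_of_nonneg_right (fn_mul X Y) (fn_nonneg Z))
  have hd := fn_nonneg (d i)
  have hd' := fn_nonneg (d j)
  have p1 : fn (S i j • (d i * I2 * B2 j)) ≤ 2 * (fn (d i) * c * a) := by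
    rw [fn_smul]
    refine mul_le_mul (hS i j) ((t3 _ _ _).trans ?_) (fn_nonneg _) (by norm_num)
    exact mul_le_mul (mul_le_mul_of_nonneg_left h2 hd) (hB2 j) (fn_nonneg _) (by positivity)
  have p2 : fn (S i j • (A1 i * I1 * d j)) ≤ 2 * (a * c * fn (d j)) := by
    rw [fn_smul]
    refine mul_le_mul (hS i j) ((t3 _ _ _).trans ?_) (fn_nonneg _) (by norm_num)
    exact mul_le_mul_of_nonneg_right (mul_le_mul (hA i) h1 (fn_nonneg _) ha) hd'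
  have p3 : fn ((S i j - S' i j) • (g1 i * I2 * B2 j)) ≤ ‖S i j - S' i j‖ * (a * c * a) := by
    rw [fn_smul]
    refine mul_le_mul_of_nonneg_left ((t3 _ _ _).trans ?_) (norm_nonneg _)
    exact mul_le_mul (mul_le_mul (hg i) h2 (fn_nonneg _) ha) (hB2 j) (fn_nonneg _) (by positivity)
  have p4 : fn ((S i j - S' i j) • (A1 i * I1 * g1 j)) ≤ ‖S i j - S' i j‖ * (a * c * a) := by
    rw [fn_smul]
    refine mul_le_mul_of_nonneg_left ((t3 _ _ _).trans ?_) (norm_nonneg _)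
    exact mul_le_mul (mul_le_mul (hA i) h1 (fn_nonneg _) ha) (hg j) (fn_nonneg _) (by positivity)
  have p5 : fn (S i j • (A1 i * (I2 - I1) * B2 j)) ≤ 2 * (a * (c ^ 2 * μ) * a) := by
    rw [fn_smul]
    refine mul_le_mul (hS i j) ((t3 _ _ _).trans ?_) (fn_nonneg _) (by norm_num)
    have hμ : 0 ≤ c ^ 2 * μ := (fn_nonneg _).trans h3
    exact mul_le_mul (mul_le_mul (hA i) h3 (fn_nonneg _) ha) (hB2 j) (fn_nonneg _) (by positivity)
  have p6 : fn ((S i j - S' i j) • (A1 i * I1 * B1 j)) ≤ ‖S i j - S' i j‖ * (a * c * a) := by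
    rw [fn_smul]
    refine mul_le_mul_of_nonneg_left ((t3 _ _ _).trans ?_) (norm_nonneg _)
    exact mul_le_mul (mul_le_mul (hA i) h1 (fn_nonneg _) ha) (hB1 j) (fn_nonneg _) (by positivity)
  unfold rst
  refine (fn_add _ _).trans ?_
  refine (add_le_add (fn_add _ _) le_rfl).trans ?_
  refine (add_le_add (add_le_add (fn_sub _ _) le_rfl) le_rfl).trans ?_
  refine (add_le_add (add_le_add (add_le_add (fn_add _ _) le_rfl) le_rfl) le_rfl).trans ?_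
  refine (add_le_add (add_le_add (add_le_add (add_le_add (fn_add _ _) le_rfl) le_rfl) le_rfl)
    le_rfl).trans ?_
  nlinarith [p1, p2, p3, p4, p5, p6]

/-- The difference of the two equations, everywhere. -/
theorem eqn {k : ℕ} {δ : ℝ} {Ω : Set (V n)} {s₁ s₂ : MF n} {P₁ P₂ : MC n N}
    {G₁ G₂ Y D : Fin n → MC n N} (h : RP k δ Ω s₁ s₂ P₁ P₂ G₁ G₂ Y D) (x : V n) :
    ∑ i, (pdm i (Fl s₂ P₂ i) x - pdm i (Fl s₁ P₁ i) x) =
      (1 / 2 : ℂ) • (Qd s₂ P₂ G₂ x - Qd s₁ P₁ G₁ x) := by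
  by_cases hx : x ∈ Ω
  · have h1 := h.d₁.pe x hx
    have h2 := h.d₂.pe x hx
    rw [Finset.sum_sub_distrib, smul_sub]
    exact congrArg₂ (· - ·) h2 h1
  · have hp : ∀ i, ∀ y ∉ Ω, pdm i P₂ y = pdm i P₁ y := fun i y hy =>
      pdm_off h.reg h.d₂.sP h.d₁.sP h.oP i hy
    have hF : ∀ (s : MF n) (P : MC n N), SmM s → SmC P → ∀ i, SmC (Fl s P i) := fun s P hs hP i =>
      smC_sum fun j _ => smC_smul (hs i j) (smC_pdm hP j)
    have e1 : ∀ i, pdm i (Fl s₂ P₂ i) x = pdm i (Fl s₁ P₁ i) x := by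
      intro i
      refine pdm_off h.reg (hF _ _ h.d₂.ss h.d₂.sP i) (hF _ _ h.d₁.ss h.d₁.sP i) ?_ i hx
      intro y hy
      unfold Fl
      simp only [h.os y hy, hp _ y hy]
    have e2 : Qd s₂ P₂ G₂ x = Qd s₁ P₁ G₁ x := by
      unfold Qd
      simp only [h.os x hx, hp _ x hx, h.oP x hx, h.oG _ x hx]
    simp only [e1, e2, sub_self, Finset.sum_const_zero, smul_zero]

end Vale.Agent.P088.PJ.H561
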