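import Vale.Agent.P088.R2.H561.V.MeA

/-!
# P088, pairs, row V-ME: pointwise bounds
-/

open MeasureTheory Set
open scoped ContDiff Matrix

noncomputable section

namespace Vale.Agent.P088.PJ.H561

open Vale.Agent.P088.LR Vale.Agent.P088.LR.U Vale.Agent.P088.LR.H158
open Vale.Agent.P088.LR.U.H129 (smC_pdm smC_add smC_sub smC_sum smC_smul pdm_add pdm_sub pdm_off)
open Vale.Agent.P088.PJ

variable {n N : ℕ}

/-! ### sums -/

theorem dsum_add (x : Fin n → ℝ) : ∑ i, ∑ j, (x i + x j) = 2 * n * ∑ i, x i := by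
  simp only [Finset.sum_add_distrib, Finset.sum_const, Finset.card_univ, Fintype.card_fin,
    nsmul_eq_mul, ← Finset.mul_sum]
  ring

/-- The main term. -/
theorem re_pos {s : Fin n → Fin n → ℝ} {δ : ℝ}
    (hs : ∀ i j, |s i j - (1 : Matrix (Fin n) (Fin n) ℝ) i j| ≤ δ)
    {d : Fin n → Matrix (Fin N) (Fin N) ℂ} (hd : ∀ i, (d i)ᴴ = d i) :
    (1 - n * δ) * ∑ i, nq (d i) ≤ (∑ i, ∑ j, (s i j : ℂ) * (d j * d i).trace).re := by
  have e0 : ∀ i, (d i * d i).trace = (nq (d i) : ℂ) := by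
    intro i
    have := tr_star_self (d i)
    rwa [hd i] at this
  have e1 : ∑ i, ∑ j, (s i j : ℂ) * (d j * d i).trace =
      ((∑ i, nq (d i) : ℝ) : ℂ) + ∑ i, ∑ j,
        ((s i j - (1 : Matrix (Fin n) (Fin n) ℝ) i j : ℝ) : ℂ) * (d j * d i).trace := by
    have e2 : ((∑ i, nq (d i) : ℝ) : ℂ) = ∑ i, ∑ j,
        (((1 : Matrix (Fin n) (Fin n) ℝ) i j : ℝ) : ℂ) * (d j * d i).trace := by
      push_cast
      refine Finset.sum_congr rfl fun i _ => ?_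
      rw [Finset.sum_eq_single i]
      · rw [Matrix.one_apply_eq, Complex.ofReal_one, one_mul, e0]
      · intro j _ hj
        rw [Matrix.one_apply_ne' hj, Complex.ofReal_zero, zero_mul]
      · intro hi
        exact absurd (Finset.mem_univ i) hi
    rw [e2, ← Finset.sum_add_distrib]
    refine Finset.sum_congr rfl fun i _ => ?_
    rw [← Finset.sum_add_distrib]
    refine Finset.sum_congr rfl fun j _ => ?_
    rw [← add_mul, ← Complex.ofReal_add]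
    congr 2
    ring
  have h1 : ‖∑ i, ∑ j, ((s i j - (1 : Matrix (Fin n) (Fin n) ℝ) i j : ℝ) : ℂ) *
      (d j * d i).trace‖ ≤ ∑ i, ∑ j, δ * (1 / 2 * (nq (d i) + nq (d j))) := by
    refine (norm_sum_le _ _).trans (Finset.sum_le_sum fun i _ => ?_)
    refine (norm_sum_le _ _).trans (Finset.sum_le_sum fun j _ => ?_)
    rw [norm_mul, Complex.norm_real, Real.norm_eq_abs]
    have g1 := tr_le (d j) (d i)
    have g2 : fn (d j) * fn (d i) ≤ 1 / 2 * (nq (d i) + nq (d j)) := by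
      rw [← fn_sq, ← fn_sq]
      nlinarith [sq_nonneg (fn (d j) - fn (d i))]
    exact mul_le_mul (hs i j) (g1.trans g2) (norm_nonneg _) ((abs_nonneg _).trans (hs i j))
  have h2 : ∑ i, ∑ j, δ * (1 / 2 * (nq (d i) + nq (d j))) = n * δ * ∑ i, nq (d i) := by
    simp only [← Finset.mul_sum]
    rw [dsum_add]
    ring
  rw [h2] at h1
  rw [e1, Complex.add_re, Complex.ofReal_re]
  have h3 := (abs_le.1 ((Complex.abs_re_le_norm _).trans h1)).1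
  linarith

/-- The term with `h = s₂ - s₁`. -/
theorem h_term (hn : 1 ≤ n) {a : ℝ} (ha : 0 ≤ a) {w : Fin n → Fin n → ℝ}
    {p d : Fin n → Matrix (Fin N) (Fin N) ℂ} (hp : ∀ i, fn (p i) ≤ a) :
    ‖∑ i, ∑ j, (w i j : ℂ) * (p j * d i).trace‖ ≤
      1 / 8 * ∑ i, nq (d i) + 2 * n * a ^ 2 * ∑ i, ∑ j, w i j ^ 2 := by
  have hn' : (0 : ℝ) < n := by exact_mod_cast hn
  have h1 : ‖∑ i, ∑ j, (w i j : ℂ) * (p j * d i).trace‖ ≤
      ∑ i, ∑ j, (1 / (8 * n) * nq (d i) + 2 * n * a ^ 2 * w i j ^ 2) := by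
    refine (norm_sum_le _ _).trans (Finset.sum_le_sum fun i _ => ?_)
    refine (norm_sum_le _ _).trans (Finset.sum_le_sum fun j _ => ?_)
    rw [norm_mul, Complex.norm_real, Real.norm_eq_abs]
    have g1 := tr_le (p j) (d i)
    have g2 : ‖(p j * d i).trace‖ ≤ a * fn (d i) :=
      g1.trans (mul_le_mul_of_nonneg_right (hp j) (fn_nonneg _))
    have g3 : |w i j| * ‖(p j * d i).trace‖ ≤ |w i j| * (a * fn (d i)) :=
      mul_le_mul_of_nonneg_left g2 (abs_nonneg _)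
    rw [← fn_sq, ← sq_abs (w i j)]
    have g4 : 0 ≤ 1 / (8 * (n : ℝ)) * (fn (d i) - 4 * n * (a * |w i j|)) ^ 2 := by positivity
    have g5 : 1 / (8 * (n : ℝ)) * (fn (d i) - 4 * n * (a * |w i j|)) ^ 2 =
        1 / (8 * n) * fn (d i) ^ 2 - a * |w i j| * fn (d i) + 2 * n * a ^ 2 * |w i j| ^ 2 := by
      field_simp
      ring
    nlinarith [g3, g4, g5]
  refine h1.trans (le_of_eq ?_)
  simp only [Finset.sum_add_distrib, Finset.sum_const, Finset.card_univ, Fintype.card_fin,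
    nsmul_eq_mul, ← Finset.mul_sum]
  field_simp

/-- The remainder times `m`. -/
theorem rst_tr {S S' : Fin n → Fin n → ℂ} {A1 B1 B2 g1 d : Fin n → Matrix (Fin N) (Fin N) ℂ}
    {I1 I2 m : Matrix (Fin N) (Fin N) ℂ} {a c δ : ℝ} (ha : 0 ≤ a) (hc : 1 ≤ c) (hδ : 0 ≤ δ)
    (hδ1 : δ ≤ 1)
    (hS : ∀ i j, ‖S i j‖ ≤ 2) (hA : ∀ i, fn (A1 i) ≤ a * δ) (hB1 : ∀ i, fn (B1 i) ≤ a * δ)
    (hB2 : ∀ i, fn (B2 i) ≤ a * δ) (hg : ∀ i, fn (g1 i) ≤ a * δ) (h1 : fn I1 ≤ c) (h2 : fn I2 ≤ c)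
    (h3 : fn (I2 - I1) ≤ c ^ 2 * fn m) :
    ‖((∑ i, ∑ j, rst S S' A1 B1 B2 g1 d I1 I2 i j) * m).trace‖ ≤
      (2 * a * c * (n + n ^ 2) + 2 * a ^ 2 * c * (1 + n ^ 2) + 2 * a ^ 2 * c ^ 2 * n ^ 2) *
        (δ * (∑ i, nq (d i)) + δ * nq m + δ ^ 2 * ∑ i, ∑ j, ‖S i j - S' i j‖ ^ 2) := by
  have hc0 : 0 ≤ c := zero_le_one.trans hc
  have haδ : 0 ≤ a * δ := mul_nonneg ha hδ
  have hm := fn_nonneg m
  have r0 : ∀ i j, fn (rst S S' A1 B1 B2 g1 d I1 I2 i j) * fn m ≤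
      (a * c * δ) * ((nq (d i) + nq (d j)) + 2 * nq m)
        + 3 / 2 * (a ^ 2 * c * δ) * (δ ^ 2 * ‖S i j - S' i j‖ ^ 2 + nq m)
        + 2 * a ^ 2 * c ^ 2 * δ * nq m := by
    intro i j
    have g1 := fn_rst (S' := S') (d := d) haδ hc0 hS hA hB1 hB2 hg h1 h2 h3 i j
    have g2 := mul_le_mul_of_nonneg_right g1 hm
    refine g2.trans ?_
    rw [← fn_sq, ← fn_sq, ← fn_sq]
    have k1 : (fn (d i) + fn (d j)) * fn m ≤ 1 / 2 * ((fn (d i) ^ 2 + fn (d j) ^ 2)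
        + 2 * fn m ^ 2) := by
      nlinarith [sq_nonneg (fn (d i) - fn m), sq_nonneg (fn (d j) - fn m)]
    have k2 : δ * ‖S i j - S' i j‖ * fn m ≤ 1 / 2 * (δ ^ 2 * ‖S i j - S' i j‖ ^ 2 + fn m ^ 2) := by
      nlinarith [sq_nonneg (δ * ‖S i j - S' i j‖ - fn m)]
    have k3 : 0 ≤ a * c * δ := by positivity
    have k4 : 0 ≤ a ^ 2 * c * δ := by positivity
    have k5 : a ^ 2 * c ^ 2 * δ ^ 2 * fn m ^ 2 ≤ a ^ 2 * c ^ 2 * δ * fn m ^ 2 := by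
      have : δ ^ 2 ≤ δ := by nlinarith
      gcongr
    have k6 := mul_le_mul_of_nonneg_left k1 k3
    have k7 := mul_le_mul_of_nonneg_left k2 k4
    nlinarith [k5, k6, k7]
  have r1 : ‖((∑ i, ∑ j, rst S S' A1 B1 B2 g1 d I1 I2 i j) * m).trace‖ ≤
      ∑ i, ∑ j, ((a * c * δ) * ((nq (d i) + nq (d j)) + 2 * nq m)
        + 3 / 2 * (a ^ 2 * c * δ) * (δ ^ 2 * ‖S i j - S' i j‖ ^ 2 + nq m)
        + 2 * a ^ 2 * c ^ 2 * δ * nq m) := by
    refine (tr_le _ _).trans ?_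
    refine (mul_le_mul_of_nonneg_right (fn_sum _ _) hm).trans ?_
    rw [Finset.sum_mul]
    refine Finset.sum_le_sum fun i _ => ?_
    refine (mul_le_mul_of_nonneg_right (fn_sum _ _) hm).trans ?_
    rw [Finset.sum_mul]
    exact Finset.sum_le_sum fun j _ => r0 i j
  refine r1.trans ?_
  have e1 : ∑ i, ∑ j, ((a * c * δ) * ((nq (d i) + nq (d j)) + 2 * nq m)
        + 3 / 2 * (a ^ 2 * c * δ) * (δ ^ 2 * ‖S i j - S' i j‖ ^ 2 + nq m)
        + 2 * a ^ 2 * c ^ 2 * δ * nq m) =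
      (a * c * δ) * (2 * n * (∑ i, nq (d i)) + 2 * n ^ 2 * nq m)
        + 3 / 2 * (a ^ 2 * c * δ) * (δ ^ 2 * (∑ i, ∑ j, ‖S i j - S' i j‖ ^ 2) + n ^ 2 * nq m)
        + 2 * a ^ 2 * c ^ 2 * δ * (n ^ 2 * nq m) := by
    rw [← dsum_add]
    simp only [Finset.sum_add_distrib, Finset.sum_const, Finset.card_univ, Fintype.card_fin,
      nsmul_eq_mul, ← Finset.mul_sum, mul_add]
    ring
  rw [e1]
  set e := ∑ i, nq (d i) with he
  set w := ∑ i, ∑ j, ‖S i j - S' i j‖ ^ 2 with hw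
  set q := nq m with hq
  have e0 : 0 ≤ e := Finset.sum_nonneg fun _ _ => nq_nonneg _
  have w0 : 0 ≤ w := Finset.sum_nonneg fun _ _ => Finset.sum_nonneg fun _ _ => sq_nonneg _
  have q0 : 0 ≤ q := nq_nonneg _
  have hδ2 : δ ^ 3 ≤ δ ^ 2 := by nlinarith [sq_nonneg δ]
  clear_value e w q
  clear r1 r0 e1 h1 h2 h3 hS hA hB1 hB2 hg hm haδ
  have f1 : a ^ 2 * c * (δ ^ 3 * w) ≤ a ^ 2 * c * (δ ^ 2 * w) := by gcongr
  have x2 : 0 ≤ a * c * (n : ℝ) ^ 2 * (δ * e) := by positivity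
  have x3 : 0 ≤ a * c * (n : ℝ) * (δ * q) := by positivity
  have x5 : 0 ≤ a * c * (n : ℝ) * (δ ^ 2 * w) := by positivity
  have x6 : 0 ≤ a * c * (n : ℝ) ^ 2 * (δ ^ 2 * w) := by positivity
  have y1 : 0 ≤ a ^ 2 * c * (δ * e) := by positivity
  have y2 : 0 ≤ a ^ 2 * c * (n : ℝ) ^ 2 * (δ * e) := by positivity
  have y3 : 0 ≤ a ^ 2 * c * (δ * q) := by positivity
  have y4 : 0 ≤ a ^ 2 * c * (n : ℝ) ^ 2 * (δ * q) := by positivity
  have y5 : 0 ≤ a ^ 2 * c * (δ ^ 2 * w) := by positivity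
  have y6 : 0 ≤ a ^ 2 * c * (n : ℝ) ^ 2 * (δ ^ 2 * w) := by positivity
  have z1 : 0 ≤ a ^ 2 * c ^ 2 * (n : ℝ) ^ 2 * (δ * e) := by positivity
  have z3 : 0 ≤ a ^ 2 * c ^ 2 * (n : ℝ) ^ 2 * (δ ^ 2 * w) := by positivity
  linarith [f1, x2, x3, x5, x6, y1, y2, y3, y4, y5, y6, z1, z3]

end Vale.Agent.P088.PJ.H561
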