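import Vale.Agent.P088.R2.H561.V.RowME

/-!
# P088, pairs: row V-ME, the main inequality
-/

open MeasureTheory Set
open scoped ContDiff Matrix

noncomputable section

namespace Vale.Agent.P088.PJ.H561

open Vale.Agent.P088.LR Vale.Agent.P088.LR.U Vale.Agent.P088.LR.H158
open Vale.Agent.P088.LR.U.H129 (smC_pdm smC_add smC_sub smC_sum smC_smul pdm_add pdm_sub pdm_off)
open Vale.Agent.P088.PJ

variable {n N : ℕ}

/-- Pointwise bounds of one pair. -/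
structure Fa (a b c δ : ℝ) (s : MF n) (P : MC n N) (G : Fin n → MC n N) : Prop where
  u : ∀ x, IsUnit (P x).det
  sI : SmC fun x => (P x)⁻¹
  bI : ∀ x, fn (P x)⁻¹ ≤ c
  bA : ∀ i x, fn (pdm i P x - G i x) ≤ a * δ
  bB : ∀ i x, fn (pdm i P x + G i x) ≤ a * δ
  bG : ∀ i x, fn (G i x) ≤ a * δ
  bp : ∀ i x, fn (pdm i P x) ≤ b * δ

/-- The constant. -/
def KK (n : ℕ) (a c : ℝ) : ℝ :=
  2 * a * c * (n + n ^ 2) + 2 * a ^ 2 * c * (1 + n ^ 2) + 2 * a ^ 2 * c ^ 2 * n ^ 2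

theorem inv_diff {A B : Matrix (Fin N) (Fin N) ℂ} {c : ℝ} (hc : 0 ≤ c) (hA : IsUnit A.det)
    (hB : IsUnit B.det)
    (h1 : fn A⁻¹ ≤ c) (h2 : fn B⁻¹ ≤ c) : fn (B⁻¹ - A⁻¹) ≤ c ^ 2 * fn (B - A) := by
  have e : B⁻¹ - A⁻¹ = -(B⁻¹ * (B - A) * A⁻¹) := by
    rw [mul_sub, sub_mul, Matrix.nonsing_inv_mul B hB, one_mul, Matrix.mul_assoc,
      Matrix.mul_nonsing_inv A hA, mul_one, neg_sub]
  rw [e, fn_neg]
  have g1 := fn_mul (B⁻¹ * (B - A)) A⁻¹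
  have g2 := fn_mul B⁻¹ (B - A)
  have g3 : fn B⁻¹ * fn (B - A) ≤ c * fn (B - A) := mul_le_mul_of_nonneg_right h2 (fn_nonneg _)
  have g4 : fn (B⁻¹ * (B - A)) * fn A⁻¹ ≤ (c * fn (B - A)) * c :=
    mul_le_mul (g2.trans g3) h1 (fn_nonneg _) (mul_nonneg hc (fn_nonneg _))
  nlinarith [g1, g4]

/-- The pointwise bound of the remainder. -/
theorem rem_pt {a b c δ : ℝ} (ha : 0 ≤ a) (hc : 1 ≤ c) (hδ : 0 ≤ δ) (hδ1 : δ ≤ 1)
    {k : ℕ} {Ω : Set (V n)} {s₁ s₂ : MF n} {P₁ P₂ : MC n N} {G₁ G₂ Y D : Fin n → MC n N}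
    (h : RP k δ Ω s₁ s₂ P₁ P₂ G₁ G₂ Y D) (f1 : Fa a b c δ s₁ P₁ G₁) (f2 : Fa a b c δ s₂ P₂ G₂)
    (x : V n) :
    ‖((Qd s₂ P₂ G₂ x - Qd s₁ P₁ G₁ x) * (P₂ x - P₁ x)).trace -
      ∑ i, (Qt s₁ s₂ G₁ G₂ i x * ((P₂ x - P₁ x) * ((pdm i P₁ x - G₁ i x) * (P₁ x)⁻¹) -
        ((P₂ x)⁻¹ * (pdm i P₂ x + G₂ i x)) * (P₂ x - P₁ x))).trace‖ ≤
    KK n a c * (δ * (∑ i, nq (pdm i (fun y => P₂ y - P₁ y) x)) + δ * nq (P₂ x - P₁ x) +
      δ ^ 2 * hh s₁ s₂ x) := by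
  have hS : ∀ i j, ‖((s₂ x i j : ℝ) : ℂ)‖ ≤ 2 := by
    intro i j
    rw [Complex.norm_real, Real.norm_eq_abs]
    have g1 := abs_of_cl (h.d₂.cs i j) x
    have g2 : |(1 : Matrix (Fin n) (Fin n) ℝ) i j| ≤ 1 := by
      rw [Matrix.one_apply]
      split_ifs <;> simp
    have g3 := abs_add_le (s₂ x i j - (1 : Matrix (Fin n) (Fin n) ℝ) i j)
      ((1 : Matrix (Fin n) (Fin n) ℝ) i j)
    rw [sub_add_cancel] at g3
    linarith
  have e1 := tr_alg (fun i j => ((s₂ x i j : ℝ) : ℂ)) (fun i j => ((s₁ x i j : ℝ) : ℂ))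
    (fun i j => by rw [(h.d₂.sy x).apply j i]) (fun i j => by rw [(h.d₁.sy x).apply j i])
    (fun i => pdm i P₁ x - G₁ i x) (fun i => pdm i P₂ x - G₂ i x)
    (fun i => pdm i P₁ x + G₁ i x) (fun i => pdm i P₂ x + G₂ i x)
    (fun i => G₁ i x) (fun i => G₂ i x) (fun i => pdm i (fun y => P₂ y - P₁ y) x)
    (P₁ x)⁻¹ (P₂ x)⁻¹
    (fun i => by rw [pdm_sub h.d₂.sP h.d₁.sP]; abel)
    (fun i => by rw [pdm_sub h.d₂.sP h.d₁.sP]; abel) (P₂ x - P₁ x)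
  have e2 := rst_tr (S := fun i j => ((s₂ x i j : ℝ) : ℂ)) (S' := fun i j => ((s₁ x i j : ℝ) : ℂ))
    (A1 := fun i => pdm i P₁ x - G₁ i x) (B1 := fun i => pdm i P₁ x + G₁ i x)
    (B2 := fun i => pdm i P₂ x + G₂ i x) (g1 := fun i => G₁ i x)
    (d := fun i => pdm i (fun y => P₂ y - P₁ y) x) (I1 := (P₁ x)⁻¹) (I2 := (P₂ x)⁻¹)
    (m := P₂ x - P₁ x) ha hc hδ hδ1 hS (fun i => f1.bA i x) (fun i => f1.bB i x)
    (fun i => f2.bB i x) (fun i => f1.bG i x) (f1.bI x) (f2.bI x)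
    (inv_diff (zero_le_one.trans hc) (f1.u x) (f2.u x) (f1.bI x) (f2.bI x))
  have e3 : ((Qd s₂ P₂ G₂ x - Qd s₁ P₁ G₁ x) * (P₂ x - P₁ x)).trace -
      ∑ i, (Qt s₁ s₂ G₁ G₂ i x * ((P₂ x - P₁ x) * ((pdm i P₁ x - G₁ i x) * (P₁ x)⁻¹) -
        ((P₂ x)⁻¹ * (pdm i P₂ x + G₂ i x)) * (P₂ x - P₁ x))).trace =
      ((∑ i, ∑ j, rst (fun i j => ((s₂ x i j : ℝ) : ℂ)) (fun i j => ((s₁ x i j : ℝ) : ℂ))
        (fun i => pdm i P₁ x - G₁ i x) (fun i => pdm i P₁ x + G₁ i x)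
        (fun i => pdm i P₂ x + G₂ i x) (fun i => G₁ i x)
        (fun i => pdm i (fun y => P₂ y - P₁ y) x) (P₁ x)⁻¹ (P₂ x)⁻¹ i j) *
          (P₂ x - P₁ x)).trace := by
    rw [sub_eq_iff_eq_add']
    refine Eq.trans e1 ?_
    rw [Matrix.trace_sum]
    congr 1
    refine Finset.sum_congr rfl fun i _ => ?_
    unfold Qt kp
    rw [← Finset.sum_sub_distrib]
  rw [e3]
  refine e2.trans (le_of_eq ?_)
  unfold KK hh
  simp only [← Complex.ofReal_sub, Complex.norm_real, Real.norm_eq_abs, sq_abs]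

/-- The main inequality. -/
theorem main_ineq (hn : 1 ≤ n) {a b c δ : ℝ} (ha : 0 ≤ a) (hb : 0 ≤ b) (hc : 1 ≤ c) (hδ : 0 ≤ δ)
    (hδ1 : δ ≤ 1) (hnδ : n * δ ≤ 1 / 2)
    {k : ℕ} {Ω : Set (V n)} {s₁ s₂ : MF n} {P₁ P₂ : MC n N} {G₁ G₂ Y D : Fin n → MC n N}
    (h : RP k δ Ω s₁ s₂ P₁ P₂ G₁ G₂ Y D) (f1 : Fa a b c δ s₁ P₁ G₁) (f2 : Fa a b c δ s₂ P₂ G₂) :
    3 / 8 * (∑ i, n2 (pdm i fun y => P₂ y - P₁ y)) ≤ 2 * n * b ^ 2 * δ ^ 2 * hs s₁ s₂ + 1 / 2 *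
      (‖∫ x, ∑ i, (Qt s₁ s₂ G₁ G₂ i x * ((P₂ x - P₁ x) * ((pdm i P₁ x - G₁ i x) * (P₁ x)⁻¹) -
        ((P₂ x)⁻¹ * (pdm i P₂ x + G₂ i x)) * (P₂ x - P₁ x))).trace‖ +
      KK n a c * (δ * (∑ i, n2 (pdm i fun y => P₂ y - P₁ y)) + δ * n2 (fun y => P₂ y - P₁ y) +
        δ ^ 2 * hs s₁ s₂)) := by
  have sm : SmC fun y => P₂ y - P₁ y := smC_sub h.d₂.sP h.d₁.sP
  have h0' : ∀ x ∉ bl0 n, P₂ x - P₁ x = 0 := fun x hx => by
    simp only [h.oP x fun hx' => hx (h.sub hx'), sub_self]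
  have h0 : ∀ x ∉ bl0 n, (fun y => P₂ y - P₁ y) x = 0 := h0'
  have cm : Continuous fun x => nq (P₂ x - P₁ x) := continuous_nq sm
  have cd : ∀ i, Continuous fun x => nq (pdm i (fun y => P₂ y - P₁ y) x) := fun i =>
    continuous_nq (smC_pdm sm i)
  have zm : ∀ x ∉ bl0 n, nq (P₂ x - P₁ x) = 0 := fun x hx => by rw [h0' x hx, nq_zero]
  have zd : ∀ i, ∀ x ∉ bl0 n, nq (pdm i (fun y => P₂ y - P₁ y) x) = 0 := fun i x hx => by
    rw [pdm_zero_off bl0_closed h0 i x hx, nq_zero]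
  have zh : ∀ x ∉ bl0 n, hh s₁ s₂ x = 0 := fun x hx => by
    unfold hh
    simp only [h.os x fun hx' => hx (h.sub hx'), sub_self]
    simp
  have im := intg cm zm
  have id' : ∀ i, Integrable fun x => nq (pdm i (fun y => P₂ y - P₁ y) x) := fun i =>
    intg (cd i) (zd i)
  have ih := intg (continuous_hh h.d₁.ss h.d₂.ss) zh
  have ie : Integrable fun x => ∑ i, nq (pdm i (fun y => P₂ y - P₁ y) x) :=
    integrable_finsetSum _ fun i _ => id' i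
  have eE : ∫ x, ∑ i, nq (pdm i (fun y => P₂ y - P₁ y) x) =
      ∑ i, n2 (pdm i fun y => P₂ y - P₁ y) := integral_finsetSum _ fun i _ => id' i
  have eM : ∫ x, nq (P₂ x - P₁ x) = n2 (fun y => P₂ y - P₁ y) := rfl
  have eH : ∫ x, hh s₁ s₂ x = hs s₁ s₂ := rfl
  -- left side
  have L := tested h
  have hherm : ∀ x i, (pdm i (fun y => P₂ y - P₁ y) x)ᴴ = pdm i (fun y => P₂ y - P₁ y) x := by
    intro x i
    rw [← pdm_star sm]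
    congr 1
    funext y
    rw [Matrix.conjTranspose_sub, h.d₂.hP, h.d₁.hP]
  have low : ∀ x, 3 / 8 * (∑ i, nq (pdm i (fun y => P₂ y - P₁ y) x)) -
      2 * n * (b * δ) ^ 2 * hh s₁ s₂ x ≤ ((∑ i, ∑ j, (s₂ x i j : ℂ) *
        (pdm j (fun y => P₂ y - P₁ y) x * pdm i (fun y => P₂ y - P₁ y) x).trace)
      + ∑ i, ∑ j, ((s₂ x i j - s₁ x i j : ℝ) : ℂ) * (pdm j P₁ x *
        pdm i (fun y => P₂ y - P₁ y) x).trace).re := by
    intro x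
    have g1 := re_pos (s := fun i j => s₂ x i j) (fun i j => abs_of_cl (h.d₂.cs i j) x)
      (d := fun i => pdm i (fun y => P₂ y - P₁ y) x) (hherm x)
    have g2 := h_term (n := n) hn (mul_nonneg hb hδ) (w := fun i j => s₂ x i j - s₁ x i j)
      (p := fun i => pdm i P₁ x) (d := fun i => pdm i (fun y => P₂ y - P₁ y) x)
      (fun i => f1.bp i x)
    have g3 := (abs_le.1 ((Complex.abs_re_le_norm _).trans g2)).1
    have g4 : 0 ≤ ∑ i, nq (pdm i (fun y => P₂ y - P₁ y) x) :=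
      Finset.sum_nonneg fun _ _ => nq_nonneg _
    rw [Complex.add_re]
    have g5 : (n * δ) * ∑ i, nq (pdm i (fun y => P₂ y - P₁ y) x) ≤
        1 / 2 * ∑ i, nq (pdm i (fun y => P₂ y - P₁ y) x) := mul_le_mul_of_nonneg_right hnδ g4
    have g6 : hh s₁ s₂ x = ∑ i, ∑ j, (s₂ x i j - s₁ x i j) ^ 2 := rfl
    rw [g6]
    linarith
  have sJ : Continuous fun x => (∑ i, ∑ j, (s₂ x i j : ℂ) *
        (pdm j (fun y => P₂ y - P₁ y) x * pdm i (fun y => P₂ y - P₁ y) x).trace)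
      + ∑ i, ∑ j, ((s₂ x i j - s₁ x i j : ℝ) : ℂ) * (pdm j P₁ x *
        pdm i (fun y => P₂ y - P₁ y) x).trace := by
    refine Continuous.add ?_ ?_
    · exact continuous_finsetSum _ fun i _ => continuous_finsetSum _ fun j _ =>
        (Complex.continuous_ofReal.comp (h.d₂.ss i j).continuous).mul
          (contDiff_trace (SmC_mul (smC_pdm sm j) (smC_pdm sm i))).continuous
    · exact continuous_finsetSum _ fun i _ => continuous_finsetSum _ fun j _ =>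
        (Complex.continuous_ofReal.comp
          ((h.d₂.ss i j).continuous.sub (h.d₁.ss i j).continuous)).mul
          (contDiff_trace (SmC_mul (smC_pdm h.d₁.sP j) (smC_pdm sm i))).continuous
  have zJ : ∀ x ∉ bl0 n, (∑ i, ∑ j, (s₂ x i j : ℂ) *
        (pdm j (fun y => P₂ y - P₁ y) x * pdm i (fun y => P₂ y - P₁ y) x).trace)
      + ∑ i, ∑ j, ((s₂ x i j - s₁ x i j : ℝ) : ℂ) * (pdm j P₁ x *
        pdm i (fun y => P₂ y - P₁ y) x).trace = 0 := by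
    intro x hx
    simp only [pdm_zero_off bl0_closed h0 _ x hx, mul_zero, Matrix.trace_zero,
      Finset.sum_const_zero, add_zero]
  have iJ := intg sJ zJ
  have lower : 3 / 8 * (∑ i, n2 (pdm i fun y => P₂ y - P₁ y)) -
      2 * n * (b * δ) ^ 2 * hs s₁ s₂ ≤ (∫ x, ((∑ i, ∑ j, (s₂ x i j : ℂ) *
        (pdm j (fun y => P₂ y - P₁ y) x * pdm i (fun y => P₂ y - P₁ y) x).trace)
      + ∑ i, ∑ j, ((s₂ x i j - s₁ x i j : ℝ) : ℂ) * (pdm j P₁ x *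
        pdm i (fun y => P₂ y - P₁ y) x).trace)).re := by
    have e1 : ∀ f : V n → ℂ, Integrable f → (∫ x, f x).re = ∫ x, (f x).re := fun f hf =>
      (integral_re hf).symm
    rw [e1 _ iJ, ← eE, ← eH, ← integral_const_mul, ← integral_const_mul,
      ← integral_sub (ie.const_mul _) (ih.const_mul _)]
    exact integral_mono ((ie.const_mul _).sub (ih.const_mul _)) iJ.re low
  rw [L] at lower
  -- right side
  have sQ1 : SmC (Qd s₁ P₁ G₁) := smC_Qd h.d₁.ss h.d₁.sP f1.sI h.d₁.sG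
  have sQ2 : SmC (Qd s₂ P₂ G₂) := smC_Qd h.d₂.ss h.d₂.sP f2.sI h.d₂.sG
  have iQ : Integrable fun x => ((Qd s₂ P₂ G₂ x - Qd s₁ P₁ G₁ x) * (P₂ x - P₁ x)).trace :=
    intg (contDiff_trace (SmC_mul (smC_sub sQ2 sQ1) sm)).continuous fun x hx => by
      rw [h0' x hx, mul_zero, Matrix.trace_zero]
  have sq : ∀ i, SmC fun x => Qt s₁ s₂ G₁ G₂ i x := fun i =>
    smC_sub (smC_kp h.d₂.ss h.d₂.sG i) (smC_kp h.d₁.ss h.d₁.sG i)
  have sf : ∀ i, SmC fun x => (P₂ x - P₁ x) * ((pdm i P₁ x - G₁ i x) * (P₁ x)⁻¹) -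
        ((P₂ x)⁻¹ * (pdm i P₂ x + G₂ i x)) * (P₂ x - P₁ x) := fun i =>
    smC_sub (SmC_mul sm (SmC_mul (smC_sub (smC_pdm h.d₁.sP i) (h.d₁.sG i)) f1.sI))
      (SmC_mul (SmC_mul f2.sI (smC_add (smC_pdm h.d₂.sP i) (h.d₂.sG i))) sm)
  have iq : Integrable fun x => ∑ i, (Qt s₁ s₂ G₁ G₂ i x * ((P₂ x - P₁ x) *
      ((pdm i P₁ x - G₁ i x) * (P₁ x)⁻¹) -
        ((P₂ x)⁻¹ * (pdm i P₂ x + G₂ i x)) * (P₂ x - P₁ x))).trace := by
    refine intg (continuous_finsetSum _ fun i _ =>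
      (contDiff_trace (SmC_mul (sq i) (sf i))).continuous) fun x hx => ?_
    simp only [h0' x hx, mul_zero, zero_mul, sub_self, Matrix.trace_zero, Finset.sum_const_zero]
  have up : ‖∫ x, ((Qd s₂ P₂ G₂ x - Qd s₁ P₁ G₁ x) * (P₂ x - P₁ x)).trace‖ ≤
      ‖∫ x, ∑ i, (Qt s₁ s₂ G₁ G₂ i x * ((P₂ x - P₁ x) * ((pdm i P₁ x - G₁ i x) * (P₁ x)⁻¹) -
        ((P₂ x)⁻¹ * (pdm i P₂ x + G₂ i x)) * (P₂ x - P₁ x))).trace‖ +
      KK n a c * (δ * (∑ i, n2 (pdm i fun y => P₂ y - P₁ y)) + δ * n2 (fun y => P₂ y - P₁ y) +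
        δ ^ 2 * hs s₁ s₂) := by
    have g1 : ‖∫ x, (((Qd s₂ P₂ G₂ x - Qd s₁ P₁ G₁ x) * (P₂ x - P₁ x)).trace -
        ∑ i, (Qt s₁ s₂ G₁ G₂ i x * ((P₂ x - P₁ x) * ((pdm i P₁ x - G₁ i x) * (P₁ x)⁻¹) -
        ((P₂ x)⁻¹ * (pdm i P₂ x + G₂ i x)) * (P₂ x - P₁ x))).trace)‖ ≤
        ∫ x, KK n a c * ((δ * (∑ i, nq (pdm i (fun y => P₂ y - P₁ y) x)) +
          δ * nq (P₂ x - P₁ x)) + δ ^ 2 * hh s₁ s₂ x) := by
      refine norm_integral_le_of_norm_le ((((ie.const_mul _).add (im.const_mul _)).add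
        (ih.const_mul _)).const_mul _) (Filter.Eventually.of_forall fun x => ?_)
      exact rem_pt ha hc hδ hδ1 h f1 f2 x
    have g2 : ∫ x, KK n a c * ((δ * (∑ i, nq (pdm i (fun y => P₂ y - P₁ y) x)) +
          δ * nq (P₂ x - P₁ x)) + δ ^ 2 * hh s₁ s₂ x) =
        KK n a c * (δ * (∑ i, n2 (pdm i fun y => P₂ y - P₁ y)) + δ * n2 (fun y => P₂ y - P₁ y) +
        δ ^ 2 * hs s₁ s₂) := by
      have j1 : Integrable fun x => δ * (∑ i, nq (pdm i (fun y => P₂ y - P₁ y) x)) :=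
        ie.const_mul _
      have j2 : Integrable fun x => δ * nq (P₂ x - P₁ x) := im.const_mul _
      have j3 : Integrable fun x => δ ^ 2 * hh s₁ s₂ x := ih.const_mul _
      have j12 : Integrable fun x => δ * (∑ i, nq (pdm i (fun y => P₂ y - P₁ y) x)) +
          δ * nq (P₂ x - P₁ x) := j1.add j2
      rw [integral_const_mul, integral_add j12 j3, integral_add j1 j2, integral_const_mul,
        integral_const_mul, integral_const_mul, eE, eM, eH]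
    rw [g2, integral_sub iQ iq] at g1
    have g3 := norm_add_le (∫ x, ∑ i, (Qt s₁ s₂ G₁ G₂ i x * ((P₂ x - P₁ x) *
      ((pdm i P₁ x - G₁ i x) * (P₁ x)⁻¹) -
        ((P₂ x)⁻¹ * (pdm i P₂ x + G₂ i x)) * (P₂ x - P₁ x))).trace)
      ((∫ x, ((Qd s₂ P₂ G₂ x - Qd s₁ P₁ G₁ x) * (P₂ x - P₁ x)).trace) -
        ∫ x, ∑ i, (Qt s₁ s₂ G₁ G₂ i x * ((P₂ x - P₁ x) * ((pdm i P₁ x - G₁ i x) * (P₁ x)⁻¹) -
        ((P₂ x)⁻¹ * (pdm i P₂ x + G₂ i x)) * (P₂ x - P₁ x))).trace)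
    rw [add_sub_cancel] at g3
    linarith
  have fin : (-((1 / 2 : ℂ) * ∫ x, ((Qd s₂ P₂ G₂ x - Qd s₁ P₁ G₁ x) *
      (P₂ x - P₁ x)).trace)).re ≤ 1 / 2 * ‖∫ x, ((Qd s₂ P₂ G₂ x - Qd s₁ P₁ G₁ x) *
      (P₂ x - P₁ x)).trace‖ := by
    refine (Complex.re_le_norm _).trans (le_of_eq ?_)
    rw [norm_neg, norm_mul]
    norm_num
  have e9 : 2 * (n : ℝ) * (b * δ) ^ 2 * hs s₁ s₂ = 2 * n * b ^ 2 * δ ^ 2 * hs s₁ s₂ := by ring
  rw [e9] at lower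
  linarith

/-- **Row V-ME.** -/
theorem rowME (hQ : RowQW) : RowME := by
  intro n N hn
  obtain ⟨c, δf, hc, hδf, hδf1, HF⟩ := facts n N
  obtain ⟨k₀, C₁, δq, hC₁, hδq, HQ⟩ := hQ n N hn
  have hn0 : (0 : ℝ) < n := by exact_mod_cast hn
  have hN0 : (0 : ℝ) ≤ N := Nat.cast_nonneg N
  have hc0 : 0 ≤ c := zero_le_one.trans hc
  obtain ⟨K, hK⟩ : ∃ K, K = KK n (2 * N) (N * c + 1) := ⟨_, rfl⟩
  have hK0 : 0 ≤ K := by
    rw [hK]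
    unfold KK
    positivity
  obtain ⟨c₂, hc₂⟩ : ∃ c₂ : ℝ, c₂ = (2 * N * (4 * N * c)) ^ 2 * (2 * n ^ 2 + 2 * n) := ⟨_, rfl⟩
  have hc₂0 : 0 ≤ c₂ := by rw [hc₂]; positivity
  obtain ⟨δ₀, hδ₀⟩ : ∃ δ₀ : ℝ, δ₀ = min (min δf δq) (min (1 / (2 * n)) (min (1 / (16 * (K + 1)))
    (1 / (32 * (C₁ * c₂ + 1))))) := ⟨_, rfl⟩
  have hδ₀0 : 0 < δ₀ := by rw [hδ₀]; positivity
  refine ⟨max 2 k₀, 11 * (2 * n * N ^ 2 + 2 * (C₁ * c₂) + K) + 1, δ₀, by positivity, hδ₀0, ?_⟩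
  intro δ hδ hδδ Ω s₁ s₂ P₁ P₂ G₁ G₂ Y D h
  rw [hδ₀] at hδδ
  have l1 : δ ≤ δf := hδδ.trans ((min_le_left _ _).trans (min_le_left _ _))
  have l2 : δ ≤ δq := hδδ.trans ((min_le_left _ _).trans (min_le_right _ _))
  have l3 : δ ≤ 1 / (2 * n) := hδδ.trans ((min_le_right _ _).trans (min_le_left _ _))
  have l4 : δ ≤ 1 / (16 * (K + 1)) :=
    hδδ.trans ((min_le_right _ _).trans ((min_le_right _ _).trans (min_le_left _ _)))
  have l5 : δ ≤ 1 / (32 * (C₁ * c₂ + 1)) :=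
    hδδ.trans ((min_le_right _ _).trans ((min_le_right _ _).trans (min_le_right _ _)))
  have hδ1 : δ ≤ 1 := l1.trans hδf1
  have l3' : n * δ ≤ 1 / 2 := by
    rw [le_div_iff₀ (by positivity)] at l3
    linarith
  have l4' : 16 * (K * δ) ≤ 1 := by
    rw [le_div_iff₀ (by positivity)] at l4
    nlinarith
  have l5' : 32 * (C₁ * c₂ * δ) ≤ 1 := by
    rw [le_div_iff₀ (by positivity)] at l5
    nlinarith
  have h2 : RP 2 δ Ω s₁ s₂ P₁ P₂ G₁ G₂ Y D := RP.mono h (le_max_left _ _) le_rfl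
  have hq : RP k₀ δq Ω s₁ s₂ P₁ P₂ G₁ G₂ Y D := RP.mono h (le_max_right _ _) l2
  have mk : ∀ (s : MF n) (P : MC n N) (G : Fin n → MC n N), Dt 2 δ Ω s P G →
      Fa (2 * N) N (N * c + 1) δ s P G := by
    intro s P G hd
    obtain ⟨u1, sI1, cI1, cp1, sA1, sB1, cA1, cB1⟩ := HF δ hδ l1 Ω s P G hd
    refine ⟨u1, sI1, fun x => ?_, fun i x => ?_, fun i x => ?_, fun i x => ?_, fun i x => ?_⟩
    · exact (fn_of_clC hc0 cI1 x).trans (by linarith)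
    · exact (fn_of_clC (by positivity) (cA1 i) x).trans (le_of_eq (by ring))
    · exact (fn_of_clC (by positivity) (cB1 i) x).trans (le_of_eq (by ring))
    · exact (fn_of_clC hδ (hd.cG i) x).trans (by nlinarith [mul_nonneg hN0 hδ])
    · exact fn_of_clC hδ (cp1 i) x
  have f1 := mk s₁ P₁ G₁ h2.d₁
  have f2 := mk s₂ P₂ G₂ h2.d₂
  obtain ⟨u1, sI1, cI1, cp1, sA1, sB1, cA1, cB1⟩ := HF δ hδ l1 Ω s₁ P₁ G₁ h2.d₁
  obtain ⟨u2, sI2, cI2, cp2, sA2, sB2, cA2, cB2⟩ := HF δ hδ l1 Ω s₂ P₂ G₂ h2.d₂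
  have sm : SmC fun y => P₂ y - P₁ y := smC_sub h.d₂.sP h.d₁.sP
  have h0 : ∀ x ∉ bl0 n, (fun y => P₂ y - P₁ y) x = 0 := fun x hx => by
    simp only [h.oP x fun hx' => hx (h.sub hx'), sub_self]
  have cU : ∀ i, ClC 1 (4 * N * c * δ) fun x => (pdm i P₁ x - G₁ i x) * (P₁ x)⁻¹ := fun i =>
    clC_mono (clC_mul (sA1 i) sI1 (cA1 i) cI1) le_rfl (le_of_eq (by ring))
  have cW : ∀ i, ClC 1 (4 * N * c * δ) fun x => (P₂ x)⁻¹ * (pdm i P₂ x + G₂ i x) := fun i =>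
    clC_mono (clC_mul sI2 (sB2 i) cI2 (cB2 i)) le_rfl (le_of_eq (by ring))
  obtain ⟨sf, bf⟩ := f_bound hδ (by positivity) sm h0 (fun i => SmC_mul (sA1 i) sI1)
    (fun i => SmC_mul sI2 (sB2 i)) cU cW
  have hT := HQ Ω s₁ s₂ P₁ P₂ G₁ G₂ Y D hq _ sf
  have hmain := main_ineq hn (by positivity) hN0 (by nlinarith) hδ hδ1 l3' h f1 f2
  have hE0 : 0 ≤ ∑ i, n2 (pdm i fun y => P₂ y - P₁ y) :=
    Finset.sum_nonneg fun i _ => integral_nonneg fun x => nq_nonneg _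
  have hM0 : 0 ≤ n2 (fun y => P₂ y - P₁ y) := integral_nonneg fun x => nq_nonneg _
  have hH0 : 0 ≤ hs s₁ s₂ := integral_nonneg fun x =>
    Finset.sum_nonneg fun _ _ => Finset.sum_nonneg fun _ _ => sq_nonneg _
  have hD0 : 0 ≤ nD D := Finset.sum_nonneg fun a _ => Finset.sum_nonneg fun i _ =>
    integral_nonneg fun x => nq_nonneg _
  have hME : n2 (fun y => P₂ y - P₁ y) ≤ ∑ i, n2 (pdm i fun y => P₂ y - P₁ y) := by
    refine (poincare sm h0 ⟨0, hn⟩).trans ?_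
    exact Finset.single_le_sum (f := fun i => n2 (pdm i fun y => P₂ y - P₁ y))
      (fun i _ => integral_nonneg fun x => nq_nonneg _) (Finset.mem_univ _)
  have hT2 := hT.trans (mul_le_mul_of_nonneg_left bf (by positivity))
  rw [← hc₂] at hT2
  rw [← hK] at hmain
  have hfin := close (b := 2 * n * N ^ 2) hE0 hM0 hH0 hD0 hK0 hc₂0 hC₁.le (by positivity) hδ hδ1
    l4' l5' hME hT2 hmain
  refine hfin.trans ?_
  have hX : 0 ≤ δ ^ 2 * (hs s₁ s₂ + nD D) := by positivity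
  nlinarith [hX]

end Vale.Agent.P088.PJ.H561
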