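import Vale.Agent.P088.R2.H561.V.Me

/-!
# P088, pairs: row V-ME
-/

open MeasureTheory Set
open scoped ContDiff Matrix

noncomputable section

namespace Vale.Agent.P088.PJ.H561

open Vale.Agent.P088.LR Vale.Agent.P088.LR.U Vale.Agent.P088.LR.H158
open Vale.Agent.P088.LR.U.H129 (smC_pdm smC_add smC_sub smC_sum smC_smul pdm_add pdm_sub pdm_off)
open Vale.Agent.P088.PJ

variable {n N : ℕ}

theorem smC_Fl {s : MF n} {P : MC n N} (hs : SmM s) (hP : SmC P) (i : Fin n) : SmC (Fl s P i) :=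
  smC_sum fun j _ => smC_smul (hs i j) (smC_pdm hP j)

theorem smC_kp {s : MF n} {G : Fin n → MC n N} (hs : SmM s) (hG : ∀ i, SmC (G i)) (i : Fin n) :
    SmC (kp s G i) :=
  smC_sum fun j _ => smC_smul (hs i j) (hG j)

theorem smC_Qd {s : MF n} {P : MC n N} {G : Fin n → MC n N} (hs : SmM s) (hP : SmC P)
    (hI : SmC fun x => (P x)⁻¹) (hG : ∀ i, SmC (G i)) : SmC (Qd s P G) :=
  smC_sum fun i _ => smC_sum fun j _ => smC_smul (hs i j)
    (SmC_mul (SmC_mul (smC_sub (smC_pdm hP i) (hG i)) hI) (smC_add (smC_pdm hP j) (hG j)))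

/-- `|s₂ - s₁|²`. -/
def hh (s₁ s₂ : MF n) (x : V n) : ℝ := ∑ i, ∑ j, (s₂ x i j - s₁ x i j) ^ 2

theorem continuous_hh {s₁ s₂ : MF n} (h1 : SmM s₁) (h2 : SmM s₂) : Continuous (hh s₁ s₂) :=
  continuous_finsetSum _ fun i _ => continuous_finsetSum _ fun j _ =>
    ((h2 i j).continuous.sub (h1 i j).continuous).pow 2

/-- The identity obtained by testing the difference of the equations with `m = P₂ - P₁`. -/
theorem tested {k : ℕ} {δ : ℝ} {Ω : Set (V n)} {s₁ s₂ : MF n} {P₁ P₂ : MC n N}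
    {G₁ G₂ Y D : Fin n → MC n N} (h : RP k δ Ω s₁ s₂ P₁ P₂ G₁ G₂ Y D) :
    ∫ x, ((∑ i, ∑ j, (s₂ x i j : ℂ) * (pdm j (fun y => P₂ y - P₁ y) x *
        pdm i (fun y => P₂ y - P₁ y) x).trace)
      + ∑ i, ∑ j, ((s₂ x i j - s₁ x i j : ℝ) : ℂ) * (pdm j P₁ x *
        pdm i (fun y => P₂ y - P₁ y) x).trace) =
    -((1 / 2 : ℂ) * ∫ x, ((Qd s₂ P₂ G₂ x - Qd s₁ P₁ G₁ x) * (P₂ x - P₁ x)).trace) := by
  set m : MC n N := fun y => P₂ y - P₁ y with hm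
  have sm : SmC m := smC_sub h.d₂.sP h.d₁.sP
  have h0 : ∀ x ∉ bl0 n, m x = 0 := fun x hx => by
    rw [hm]
    simp only [h.oP x fun hx' => hx (h.sub hx'), sub_self]
  have sΦ : ∀ i, SmC fun x => Fl s₂ P₂ i x - Fl s₁ P₁ i x := fun i =>
    smC_sub (smC_Fl h.d₂.ss h.d₂.sP i) (smC_Fl h.d₁.ss h.d₁.sP i)
  have e1 : ∀ x, (∑ i, ∑ j, (s₂ x i j : ℂ) * (pdm j m x * pdm i m x).trace)
      + ∑ i, ∑ j, ((s₂ x i j - s₁ x i j : ℝ) : ℂ) * (pdm j P₁ x * pdm i m x).trace =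
      ∑ i, ((Fl s₂ P₂ i x - Fl s₁ P₁ i x) * pdm i m x).trace := by
    intro x
    rw [← Finset.sum_add_distrib]
    refine Finset.sum_congr rfl fun i _ => ?_
    have e2 : Fl s₂ P₂ i x - Fl s₁ P₁ i x =
        ∑ j, ((s₂ x i j : ℂ) • pdm j m x + ((s₂ x i j - s₁ x i j : ℝ) : ℂ) • pdm j P₁ x) := by
      unfold Fl
      rw [← Finset.sum_sub_distrib]
      refine Finset.sum_congr rfl fun j _ => ?_
      rw [hm, pdm_sub h.d₂.sP h.d₁.sP, Complex.ofReal_sub, sub_smul, smul_sub]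
      abel
    rw [e2, Finset.sum_mul, Matrix.trace_sum, ← Finset.sum_add_distrib]
    refine Finset.sum_congr rfl fun j _ => ?_
    rw [add_mul, Matrix.smul_mul, Matrix.smul_mul, Matrix.trace_add, Matrix.trace_smul,
      Matrix.trace_smul, smul_eq_mul, smul_eq_mul]
  have i1 : ∀ i, Integrable fun x => ((Fl s₂ P₂ i x - Fl s₁ P₁ i x) * pdm i m x).trace := by
    intro i
    refine intg (contDiff_trace (SmC_mul (sΦ i) (smC_pdm sm i))).continuous fun x hx => ?_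
    rw [pdm_zero_off bl0_closed h0 i x hx, mul_zero, Matrix.trace_zero]
  have i2 : ∀ i, Integrable fun x =>
      (pdm i (fun x => Fl s₂ P₂ i x - Fl s₁ P₁ i x) x * m x).trace := by
    intro i
    refine intg (contDiff_trace (SmC_mul (smC_pdm (sΦ i) i) sm)).continuous fun x hx => ?_
    rw [h0 x hx, mul_zero, Matrix.trace_zero]
  simp only [e1]
  rw [integral_finset_sum _ fun i _ => i1 i]
  have e3 : ∀ i, ∫ x, ((Fl s₂ P₂ i x - Fl s₁ P₁ i x) * pdm i m x).trace =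
      -∫ x, (pdm i (fun x => Fl s₂ P₂ i x - Fl s₁ P₁ i x) x * m x).trace := fun i => by
    rw [ibp (sΦ i) sm h0 i, neg_neg]
  simp only [e3]
  rw [Finset.sum_neg_distrib, ← integral_finset_sum _ fun i _ => i2 i, ← integral_const_mul]
  congr 1
  refine integral_congr_ae (Filter.Eventually.of_forall fun x => ?_)
  simp only
  rw [← Matrix.trace_sum, ← Finset.sum_mul]
  have e4 : ∀ i, pdm i (fun x => Fl s₂ P₂ i x - Fl s₁ P₁ i x) x =
      pdm i (Fl s₂ P₂ i) x - pdm i (Fl s₁ P₁ i) x := fun i =>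
    pdm_sub (smC_Fl h.d₂.ss h.d₂.sP i) (smC_Fl h.d₁.ss h.d₁.sP i) i x
  simp only [e4]
  rw [eqn h x, Matrix.smul_mul, Matrix.trace_smul, smul_eq_mul]

/-- The closing inequality. -/
theorem close {E M H D T δ K c₂ C₁ b : ℝ} (hE : 0 ≤ E) (hM : 0 ≤ M) (hH : 0 ≤ H) (hD : 0 ≤ D)
    (hK : 0 ≤ K) (hc₂ : 0 ≤ c₂) (hC₁ : 0 ≤ C₁) (hb : 0 ≤ b) (hδ : 0 ≤ δ) (hδ1 : δ ≤ 1)
    (hKδ : 16 * (K * δ) ≤ 1) (hcδ : 32 * (C₁ * c₂ * δ) ≤ 1) (hME : M ≤ E)
    (hT : T ^ 2 ≤ C₁ * (H + M + D) * (c₂ * δ ^ 2 * (M + E)))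
    (hm : 3 / 8 * E ≤ b * δ ^ 2 * H + 1 / 2 * (T + K * (δ * E + δ * M + δ ^ 2 * H))) :
    M + E ≤ 11 * (b + 2 * (C₁ * c₂) + K) * δ ^ 2 * (H + D) := by
  have hX : 0 ≤ H + D := add_nonneg hH hD
  have hC := mul_nonneg hC₁ hc₂
  have h1 : T ^ 2 ≤ (1 / 8 * E + 4 * (C₁ * c₂) * δ ^ 2 * (H + D + E)) ^ 2 := by
    refine hT.trans ?_
    have h2 : C₁ * (H + M + D) * (c₂ * δ ^ 2 * (M + E)) ≤
        (C₁ * c₂) * δ ^ 2 * (H + D + E) * (2 * E) := by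
      have h3 : C₁ * (H + M + D) * (c₂ * δ ^ 2 * (M + E)) =
          (C₁ * c₂) * δ ^ 2 * ((H + M + D) * (M + E)) := by ring
      rw [h3, mul_assoc ((C₁ * c₂) * δ ^ 2)]
      refine mul_le_mul_of_nonneg_left ?_ (by positivity)
      exact mul_le_mul (by linarith) (by linarith) (by positivity) (by positivity)
    refine h2.trans ?_
    nlinarith [sq_nonneg (1 / 8 * E - 4 * (C₁ * c₂) * δ ^ 2 * (H + D + E))]
  have h0 : 0 ≤ 1 / 8 * E + 4 * (C₁ * c₂) * δ ^ 2 * (H + D + E) := by positivity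
  have h4 : T ≤ 1 / 8 * E + 4 * (C₁ * c₂) * δ ^ 2 * (H + D + E) :=
    (abs_le_of_sq_le_sq' h1 h0).2
  have h5 : δ ^ 2 ≤ δ := by nlinarith
  have h6 : 2 * (C₁ * c₂) * δ ^ 2 * E ≤ 1 / 16 * E := by
    refine mul_le_mul_of_nonneg_right ?_ hE
    nlinarith [mul_le_mul_of_nonneg_left h5 hC]
  have h7 : K * δ * E ≤ 1 / 16 * E := mul_le_mul_of_nonneg_right (by linarith) hE
  have h8 : K * δ * M ≤ K * δ * E := mul_le_mul_of_nonneg_left hME (by positivity)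
  have h9 : 0 ≤ δ ^ 2 * D := by positivity
  have h10 : 0 ≤ b * (δ ^ 2 * D) := by positivity
  have h11 : 0 ≤ K * (δ ^ 2 * D) := by positivity
  have h12 : 0 ≤ K * (δ ^ 2 * H) := by positivity
  have h13 : 0 ≤ (C₁ * c₂) * (δ ^ 2 * (H + D)) := by positivity
  have h14 : 0 ≤ b * (δ ^ 2 * H) := by positivity
  nlinarith [h4, h6, h7, h8, h10, h11, h12, h13, h14, hm, hME]

end Vale.Agent.P088.PJ.H561
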