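import Vale.Agent.P088.R2.H551.V.Spec
import Vale.Agent.P088.R2.H561.V.Fro
import Vale.Agent.P088.H91.UInv
import Vale.Agent.P088.H129.URed
import Vale.Agent.P088.H159.USm
import Vale.Agent.P088.H535.USmk

/-!
# P088, pairs: integration by parts, Poincaré inequality, bounds
-/

open MeasureTheory Set
open scoped ContDiff Matrix

noncomputable section

namespace Vale.Agent.P088.PJ.H561

open Vale.Agent.P088.LR Vale.Agent.P088.LR.U Vale.Agent.P088.LR.H158
open Vale.Agent.P088.LR.U.H129 (smC_pdm smC_add smC_sub smC_sum smC_smul pdm_add pdm_sub pdm_off)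
open Vale.Agent.P088.PJ

variable {n N : ℕ}

/-! ### the container -/

theorem bl0_abs {x : V n} (hx : x ∈ bl0 n) (i : Fin n) : |x i| ≤ 1 / 2 := by
  have h1 : x i ^ 2 ≤ HY.sq x :=
    Finset.single_le_sum (f := fun j => x j ^ 2) (fun _ _ => sq_nonneg _) (Finset.mem_univ i)
  have h2 : x i ^ 2 ≤ (1 / 2) ^ 2 := by
    have h3 : HY.sq x ≤ 1 / 4 := hx
    linarith
  exact abs_le_of_sq_le_sq h2 (by norm_num)

theorem bl0_bdd : Bornology.IsBounded (bl0 n) := by
  refine (Metric.isBounded_closedBall (x := (0 : V n)) (r := 1 / 2)).subset fun x hx => ?_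
  rw [mem_closedBall_zero_iff, pi_norm_le_iff_of_nonneg (by norm_num)]
  intro i
  rw [Real.norm_eq_abs]
  exact bl0_abs hx i

theorem bl0_closed : IsClosed (bl0 n) := by
  have h : Continuous fun x : V n => HY.sq x := by
    unfold HY.sq
    exact continuous_finsetSum _ fun i _ => (continuous_apply i).pow 2
  exact isClosed_le h continuous_const

theorem bl0_compact : IsCompact (bl0 n) :=
  Metric.isCompact_of_isClosed_isBounded bl0_closed bl0_bdd

theorem intg {E : Type*} [NormedAddCommGroup E] {f : V n → E} (hf : Continuous f)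
    (h0 : ∀ x ∉ bl0 n, f x = 0) : Integrable f :=
  hf.integrable_of_hasCompactSupport (HasCompactSupport.intro bl0_compact h0)

/-! ### continuity -/

theorem cont_of_smC {P : MC n N} (hP : SmC P) (a b : Fin N) : Continuous fun x => P x a b :=
  (hP a b).continuous

theorem continuous_nq {P : MC n N} (hP : SmC P) : Continuous fun x => nq (P x) := by
  unfold nq
  exact continuous_finsetSum _ fun a _ => continuous_finsetSum _ fun b _ =>
    (hP a b).continuous.norm.pow 2

theorem continuous_fn {P : MC n N} (hP : SmC P) : Continuous fun x => fn (P x) :=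
  (continuous_nq hP).sqrt

theorem contDiff_trace {P : MC n N} (hP : SmC P) : ContDiff ℝ ∞ fun x => (P x).trace := by
  simp only [Matrix.trace, Matrix.diag_apply]
  exact ContDiff.sum fun a _ => hP a a

theorem pd_trace {P : MC n N} (hP : SmC P) (i : Fin n) (x : V n) :
    pd i (fun y => (P y).trace) x = (pdm i P x).trace := by
  simp only [Matrix.trace, Matrix.diag_apply]
  rw [pd_sum fun a _ => dfa (hP a a) x]
  rfl

theorem nq_zero : nq (0 : Matrix (Fin N) (Fin N) ℂ) = 0 := by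
  unfold nq
  simp

/-! ### derivatives off the container -/

theorem pdm_zero_off {K : Set (V n)} (hK : IsClosed K) {m : MC n N} (h0 : ∀ x ∉ K, m x = 0)
    (i : Fin n) : ∀ x ∉ K, pdm i m x = 0 := by
  intro x hx
  rw [pdm_congr hK.isOpen_compl (Q := fun _ => 0) (fun y hy => h0 y hy) hx i, pdm_const]

/-! ### integration by parts -/

theorem ibp {Φ m : MC n N} (hΦ : SmC Φ) (hm : SmC m) (h0 : ∀ x ∉ bl0 n, m x = 0) (i : Fin n) :
    ∫ x, (pdm i Φ x * m x).trace = -∫ x, (Φ x * pdm i m x).trace := by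
  have hG : SmC fun x => Φ x * m x := SmC_mul hΦ hm
  have h1 := (integral_pd_zero bl0_bdd (contDiff_trace hG)
    (fun x hx => by rw [h0 x hx, mul_zero, Matrix.trace_zero]) i).2
  have h2 : ∀ x, pd i (fun y => (Φ y * m y).trace) x =
      (pdm i Φ x * m x).trace + (Φ x * pdm i m x).trace := by
    intro x
    rw [pd_trace hG, pdm_mul hΦ hm, Matrix.trace_add]
  simp only [h2] at h1
  rw [integral_add] at h1
  · exact eq_neg_of_add_eq_zero_left h1
  · refine intg (contDiff_trace (SmC_mul (smC_pdm hΦ i) hm)).continuous fun x hx => ?_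
    rw [h0 x hx, mul_zero, Matrix.trace_zero]
  · refine intg (contDiff_trace (SmC_mul hΦ (smC_pdm hm i))).continuous fun x hx => ?_
    rw [pdm_zero_off bl0_closed h0 i x hx, mul_zero, Matrix.trace_zero]

/-! ### Poincaré inequality -/

theorem poincare {m : MC n N} (hm : SmC m) (h0 : ∀ x ∉ bl0 n, m x = 0) (i : Fin n) :
    n2 m ≤ n2 (pdm i m) := by
  have hs := SmC_star hm
  have hmm : SmC fun x => m x * (m x)ᴴ := SmC_mul hm hs
  have hx0 : SmC fun x : V n => ((x i : ℝ) : ℂ) • (m x * (m x)ᴴ) :=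
    smC_smul (contDiff_apply ℝ ℝ i) hmm
  have h1 := (integral_pd_zero bl0_bdd (contDiff_trace hx0)
    (fun x hx => by rw [h0 x hx, zero_mul, smul_zero, Matrix.trace_zero]) i).2
  have h2 : ∀ x, pd i (fun y : V n => (((y i : ℝ) : ℂ) • (m y * (m y)ᴴ)).trace) x =
      (nq (m x) : ℂ) + ((x i : ℝ) : ℂ) * ((pdm i m x * (m x)ᴴ).trace +
        (m x * (pdm i m x)ᴴ).trace) := by
    intro x
    have e : (fun y : V n => (((y i : ℝ) : ℂ) • (m y * (m y)ᴴ)).trace) =
        fun y : V n => ((y i : ℝ) : ℂ) * (m y * (m y)ᴴ).trace := by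
      funext y
      rw [Matrix.trace_smul, smul_eq_mul]
    rw [e, pd_mul (dfa (contDiff_coord i) x) (dfa (contDiff_trace hmm) x), pd_coord,
      pd_trace hmm, pdm_mul hm hs, pdm_star hm, Matrix.trace_add, tr_star_self]
    simp
  simp only [h2] at h1
  have c1 : Continuous fun x => (nq (m x) : ℂ) := Complex.continuous_ofReal.comp (continuous_nq hm)
  have c2 : Continuous fun x : V n => ((x i : ℝ) : ℂ) * ((pdm i m x * (m x)ᴴ).trace +
      (m x * (pdm i m x)ᴴ).trace) :=
    (contDiff_coord i).continuous.mul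
      ((contDiff_trace (SmC_mul (smC_pdm hm i) hs)).continuous.add
        (contDiff_trace (SmC_mul hm (SmC_star (smC_pdm hm i)))).continuous)
  have z2 : ∀ x ∉ bl0 n, ((x i : ℝ) : ℂ) * ((pdm i m x * (m x)ᴴ).trace +
      (m x * (pdm i m x)ᴴ).trace) = 0 := by
    intro x hx
    rw [h0 x hx]
    simp
  rw [integral_add (intg c1 fun x hx => by rw [h0 x hx, nq_zero]; simp) (intg c2 z2)] at h1
  have h3 : ((n2 m : ℝ) : ℂ) = -∫ x : V n, ((x i : ℝ) : ℂ) * ((pdm i m x * (m x)ᴴ).trace +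
      (m x * (pdm i m x)ᴴ).trace) := by
    have h4 : ∫ x, (nq (m x) : ℂ) = ((n2 m : ℝ) : ℂ) := integral_ofReal
    rw [h4] at h1
    exact eq_neg_of_add_eq_zero_left h1
  have h5 : n2 m ≤ ∫ x, (1 / 2 * nq (m x) + 1 / 2 * nq (pdm i m x)) := by
    have e1 : n2 m = ‖((n2 m : ℝ) : ℂ)‖ := by
      rw [Complex.norm_real, Real.norm_eq_abs, abs_of_nonneg]
      exact integral_nonneg fun x => nq_nonneg _
    rw [e1, h3, norm_neg]
    refine (norm_integral_le_integral_norm _).trans (integral_mono (intg c2 z2).norm ?_ ?_)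
    · refine intg ((continuous_const.mul (continuous_nq hm)).add
        (continuous_const.mul (continuous_nq (smC_pdm hm i)))) fun x hx => ?_
      rw [h0 x hx, pdm_zero_off bl0_closed h0 i x hx, nq_zero]
      ring
    · intro x
      by_cases hx : x ∈ bl0 n
      · have g1 := tr_le (pdm i m x) (m x)ᴴ
        have g2 := tr_le (m x) (pdm i m x)ᴴ
        rw [fn_star] at g1 g2
        have g3 := bl0_abs hx i
        have g4 : ‖((x i : ℝ) : ℂ)‖ ≤ 1 / 2 := by
          rw [Complex.norm_real, Real.norm_eq_abs]; exact g3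
        have g5 := norm_add_le (pdm i m x * (m x)ᴴ).trace (m x * (pdm i m x)ᴴ).trace
        simp only [norm_mul]
        rw [← fn_sq, ← fn_sq]
        have g6 := fn_nonneg (m x)
        have g7 := fn_nonneg (pdm i m x)
        have g8 : ‖((x i : ℝ) : ℂ)‖ * ‖(pdm i m x * (m x)ᴴ).trace + (m x * (pdm i m x)ᴴ).trace‖ ≤
            1 / 2 * (2 * (fn (pdm i m x) * fn (m x))) := by
          refine mul_le_mul g4 (g5.trans ?_) (norm_nonneg _) (by norm_num)
          linarith [mul_comm (fn (m x)) (fn (pdm i m x))]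
        nlinarith [sq_nonneg (fn (m x) - fn (pdm i m x))]
      · simp only [z2 x hx, norm_zero]
        have := nq_nonneg (m x)
        have := nq_nonneg (pdm i m x)
        positivity
  have c3 : Integrable fun x => 1 / 2 * nq (m x) :=
    intg (continuous_const.mul (continuous_nq hm)) fun x hx => by rw [h0 x hx, nq_zero, mul_zero]
  have c4 : Integrable fun x => 1 / 2 * nq (pdm i m x) :=
    intg (continuous_const.mul (continuous_nq (smC_pdm hm i))) fun x hx => by
      rw [pdm_zero_off bl0_closed h0 i x hx, nq_zero, mul_zero]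
  rw [integral_add c3 c4, integral_const_mul, integral_const_mul] at h5
  unfold n2 at h5 ⊢
  linarith

/-! ### bounds -/

theorem clC_mono {k k' : ℕ} {δ δ' : ℝ} {P : MC n N} (h : ClC k δ P) (hk : k' ≤ k) (hδ : δ ≤ δ') :
    ClC k' δ' P := fun a b => H535.cl_le (h a b) hk hδ

theorem clC_pdm {k : ℕ} {δ : ℝ} {P : MC n N} (hP : SmC P) (h : ClC (k + 1) δ P) (i : Fin n) :
    ClC k δ (pdm i P) := fun a b => Vale.Agent.P088.H159.cl_pdF (hP a b) (h a b) i

theorem clC_add {k : ℕ} {a b : ℝ} {P Q : MC n N} (hP : SmC P) (hQ : SmC Q) (h1 : ClC k a P)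
    (h2 : ClC k b Q) : ClC k (a + b) (fun x => P x + Q x) := fun α β =>
  H535.cl_add (hP α β) (hQ α β) (h1 α β) (h2 α β)

theorem clC_neg {k : ℕ} {a : ℝ} {P : MC n N} (h1 : ClC k a P) : ClC k a (fun x => -P x) := by
  intro α β l hl x
  have e : iteratedFDeriv ℝ l (fun x => (-P x) α β) x = -iteratedFDeriv ℝ l (fun x => P x α β) x := by
    have := iteratedFDeriv_neg_apply (𝕜 := ℝ) (i := l) (f := fun x => P x α β) (x := x)
    exact this
  rw [e, norm_neg]
  exact h1 α β l hl x

theorem clC_sub {k : ℕ} {a b : ℝ} {P Q : MC n N} (hP : SmC P) (hQ : SmC Q) (h1 : ClC k a P)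
    (h2 : ClC k b Q) : ClC k (a + b) (fun x => P x - Q x) := by
  have hQ' : SmC fun x => -Q x := fun α β => (hQ α β).neg
  have h := clC_add hP hQ' h1 (clC_neg h2)
  simpa only [sub_eq_add_neg] using h

theorem clC_mul {k : ℕ} {a b : ℝ} {P Q : MC n N} (hP : SmC P) (hQ : SmC Q) (h1 : ClC k a P)
    (h2 : ClC k b Q) : ClC k (N * (2 ^ k * (a * b))) (fun x => P x * Q x) := by
  intro α β
  have h3 := H535.cl_sum Finset.univ (fun c : Fin N => (hP α c).mul (hQ c β))
    (fun c => H535.cl_mul (hP α c) (hQ c β) (h1 α c) (h2 c β))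
  rw [Finset.card_univ, Fintype.card_fin] at h3
  simp only [Matrix.mul_apply]
  exact h3

theorem clC_one {k : ℕ} : ClC k 1 (fun _ : V n => (1 : Matrix (Fin N) (Fin N) ℂ)) := by
  intro α β l _ x
  rcases Nat.eq_zero_or_pos l with rfl | hl
  · rw [norm_iteratedFDeriv_zero]
    show ‖(1 : Matrix (Fin N) (Fin N) ℂ) α β‖ ≤ 1
    rw [Matrix.one_apply]
    split_ifs <;> simp
  · rw [iteratedFDeriv_const_of_ne hl.ne']
    simp

theorem fn_of_clC {k : ℕ} {δ : ℝ} (hδ : 0 ≤ δ) {P : MC n N} (h : ClC k δ P) (x : V n) :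
    fn (P x) ≤ N * δ := by
  refine fn_le hδ fun a b => ?_
  have := h a b 0 (Nat.zero_le _) x
  rwa [norm_iteratedFDeriv_zero] at this

theorem abs_of_cl {k : ℕ} {δ : ℝ} {f : V n → ℝ} (h : Cl k δ f) (x : V n) : |f x| ≤ δ := by
  have := h 0 (Nat.zero_le _) x
  rwa [norm_iteratedFDeriv_zero, Real.norm_eq_abs] at this

/-! ### monotonicity of the hypotheses -/

theorem Dt.mono {k k' : ℕ} {δ δ' : ℝ} {Ω : Set (V n)} {s : MF n} {P : MC n N}
    {G : Fin n → MC n N} (h : Dt k δ Ω s P G) (hk : k' ≤ k) (hδ : δ ≤ δ') : Dt k' δ' Ω s P G :=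
  { h with
    cs := fun i j => H535.cl_le (h.cs i j) hk hδ
    cP := clC_mono h.cP hk hδ
    cG := fun i => clC_mono (h.cG i) hk hδ }

theorem RP.mono {k k' : ℕ} {δ δ' : ℝ} {Ω : Set (V n)} {s₁ s₂ : MF n} {P₁ P₂ : MC n N}
    {G₁ G₂ Y D : Fin n → MC n N} (h : RP k δ Ω s₁ s₂ P₁ P₂ G₁ G₂ Y D) (hk : k' ≤ k)
    (hδ : δ ≤ δ') : RP k' δ' Ω s₁ s₂ P₁ P₂ G₁ G₂ Y D :=
  { h with
    d₁ := Dt.mono h.d₁ hk hδ
    d₂ := Dt.mono h.d₂ hk hδ
    cY := fun a => clC_mono (h.cY a) hk hδ
    cD := fun a => clC_mono (h.cD a) hk hδ }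

end Vale.Agent.P088.PJ.H561
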